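import Vale.Agent.P088.R2.H338.C.Lad

/-!
# P088, stage 3: one direction of the margins of region I

`conv`: from a zone inequality with the additional term `∫ kk (ν·(X a + X b))²` the margins
`m₁ (ν·DW)₁² a² + m₂ (ν·DW)₂² b²` for `m₁ + m₂ ≤ kk` (energy identity in the direction `ν`).
-/

open MeasureTheory Set Filter
open scoped ContDiff Topology

noncomputable section

namespace Vale.Agent.P088.R2.H338.C

open Vale.Agent.P088.R2.H961.GW Vale.Agent.P088.R2.H960.W Vale.Agent.P088.R2.H644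
open Vale.Agent.P088.R2.H551.E

variable {E ι : Type*} [NormedAddCommGroup E] [NormedSpace ℝ E] [Fintype ι]

/-- The derivative in the direction `ν`. -/
def Dn (σ : Sl E ι) (ν : ι → E → ℝ) (f : E → ℝ) (z : E) : ℝ := ∑ i, ν i z * σ.D i f z

/-- The divergence of `ν`. -/
def dvn (σ : Sl E ι) (ν : ι → E → ℝ) (z : E) : ℝ := ∑ i, (σ.D i (ν i) z + σ.k i z * ν i z)

/-- `ν · X a`. -/
def Xn (σ : Sl E ι) (ν : ι → E → ℝ) (W a : E → ℝ) (z : E) : ℝ := ∑ i, ν i z * Ch.XX σ W a z i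

/-- The field `m ν_i (D_ν W) a²`. -/
def fn (σ : Sl E ι) (ν : ι → E → ℝ) (m W a : E → ℝ) (i : ι) (z : E) : ℝ :=
  (m z * ν i z) * (Dn σ ν W z * a z ^ 2)

/-- A density with vanishing integral. -/
def remn (σ : Sl E ι) (ν : ι → E → ℝ) (m W a : E → ℝ) (z : E) : ℝ :=
  ∑ i, (σ.D i (fn σ ν m W a i) z + σ.k i z * fn σ ν m W a i z)

section pw

variable {σ τ : Sl E ι} {U : Set E} {θ m W a b : E → ℝ} {ν : ι → E → ℝ} {z : E}

theorem sDn (ok : σ.Ok U θ) (hν : ∀ i, Sm U (ν i)) {f : E → ℝ} (hf : Sm U f) :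
    Sm U (Dn σ ν f) :=
  Sm.sum _ fun i _ => (hν i).mul (ok.sD hf i)

theorem tfn (ok : σ.Ok U θ) (hν : ∀ i, Sm U (ν i)) (hm : Sm U m) (hW : Sm U W) (ha : Te U a)
    (i : ι) : Te U (fn σ ν m W a i) :=
  ((ha.sq ok.op).mul_left ok.op (sDn ok hν hW)).mul_left ok.op (hm.mul (hν i))

theorem tremn (ok : σ.Ok U θ) (hν : ∀ i, Sm U (ν i)) (hm : Sm U m) (hW : Sm U W) (ha : Te U a) :
    Te U (remn σ ν m W a) :=
  Te.sum ok.op _ fun i _ => (ok.tD (tfn ok hν hm hW ha i) i).add ok.op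
    ((tfn ok hν hm hW ha i).mul_left ok.op (ok.ks i))

theorem tXn (ok : σ.Ok U θ) (hν : ∀ i, Sm U (ν i)) (hW : Sm U W) (ha : Te U a) :
    Te U (Xn σ ν W a) :=
  Te.sum ok.op _ fun i _ => (tX ok hW ha i).mul_left ok.op (hν i)

omit [Fintype ι] in
theorem XX_def (σ : Sl E ι) (W a : E → ℝ) (z : E) (i : ι) :
    Ch.XX σ W a z i = a z * σ.D i W z - σ.D i a z := rfl

theorem Xn_eq (σ : Sl E ι) (ν : ι → E → ℝ) (W a : E → ℝ) (z : E) :
    Xn σ ν W a z = a z * Dn σ ν W z - Dn σ ν a z := by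
  unfold Xn Dn
  rw [Finset.mul_sum, ← Finset.sum_sub_distrib]
  exact Finset.sum_congr rfl fun i _ => by rw [XX_def]; ring

theorem remn_eq (ok : σ.Ok U θ) (hν : ∀ i, Sm U (ν i)) (hm : Sm U m) (hW : Sm U W)
    (ha : Te U a) (hz : z ∈ U) : remn σ ν m W a z =
      (Dn σ ν m z * Dn σ ν W z + m z * Dn σ ν (Dn σ ν W) z + m z * Dn σ ν W z * dvn σ ν z) *
        a z ^ 2 + 2 * (m z * Dn σ ν W z * (a z * Dn σ ν a z)) := by
  have hU := ok.op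
  have hg := sDn ok hν hW
  have h : ∀ i, σ.D i (fn σ ν m W a i) z + σ.k i z * fn σ ν m W a i z =
      (Dn σ ν W z * a z ^ 2) * (ν i z * σ.D i m z) +
      (m z * a z ^ 2) * (ν i z * σ.D i (Dn σ ν W) z) +
      (m z * Dn σ ν W z * a z ^ 2) * (σ.D i (ν i) z + σ.k i z * ν i z) +
      (2 * (m z * Dn σ ν W z * a z)) * (ν i z * σ.D i a z) := by
    intro i
    unfold fn
    have h1 : σ.D i (fun z => (m z * ν i z) * (Dn σ ν W z * a z ^ 2)) z =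
        σ.D i (fun z => m z * ν i z) z * (Dn σ ν W z * a z ^ 2) +
        (m z * ν i z) * σ.D i (fun z => Dn σ ν W z * a z ^ 2) z :=
      D_mul σ hU (hm.mul (hν i)) (hg.mul (ha.sm.pow 2)) i hz
    have h2 : σ.D i (fun z => m z * ν i z) z = σ.D i m z * ν i z + m z * σ.D i (ν i) z :=
      D_mul σ hU hm (hν i) i hz
    have h3 : σ.D i (fun z => Dn σ ν W z * a z ^ 2) z =
        σ.D i (Dn σ ν W) z * a z ^ 2 + Dn σ ν W z * σ.D i (fun z => a z ^ 2) z :=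
      D_mul σ hU hg (ha.sm.pow 2) i hz
    have h4 : σ.D i (fun z => a z ^ 2) z = 2 * a z * σ.D i a z := D_sq σ hU ha.sm i hz
    rw [h1, h2, h3, h4]
    ring
  unfold remn
  rw [Finset.sum_congr rfl fun i _ => h i, Finset.sum_add_distrib, Finset.sum_add_distrib,
    Finset.sum_add_distrib, ← Finset.mul_sum, ← Finset.mul_sum, ← Finset.mul_sum,
    ← Finset.mul_sum]
  have e1 : ∑ i, ν i z * σ.D i m z = Dn σ ν m z := rfl
  have e2 : ∑ i, ν i z * σ.D i (Dn σ ν W) z = Dn σ ν (Dn σ ν W) z := rfl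
  have e3 : ∑ i, (σ.D i (ν i) z + σ.k i z * ν i z) = dvn σ ν z := rfl
  have e4 : ∑ i, ν i z * σ.D i a z = Dn σ ν a z := rfl
  rw [e1, e2, e3, e4]
  ring

/-- The pointwise inequality in the direction `ν`. -/
theorem pt_n (ok : σ.Ok U θ) (hν : ∀ i, Sm U (ν i)) (hm : Sm U m) (hW : Sm U W)
    (ha : Te U a) (hz : z ∈ U) (hm0 : 0 ≤ m z) {e : ℝ}
    (he : |Dn σ ν m z * Dn σ ν W z + m z * Dn σ ν (Dn σ ν W) z +
      m z * Dn σ ν W z * dvn σ ν z| ≤ m z * Dn σ ν W z ^ 2 / 2 + e) :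
    m z * Dn σ ν W z ^ 2 * a z ^ 2 ≤ 2 * (m z * Xn σ ν W a z ^ 2) + 2 * e * a z ^ 2 +
      2 * remn σ ν m W a z := by
  have h1 := (abs_le.1 he).1
  have h2 := mul_le_mul_of_nonneg_right h1 (sq_nonneg (a z))
  have h3 : 0 ≤ m z * Dn σ ν a z ^ 2 := mul_nonneg hm0 (sq_nonneg _)
  rw [remn_eq ok hν hm hW ha hz, Xn_eq]
  nlinarith [h2, h3]

end pw

variable [MeasureSpace E] [FiniteDimensional ℝ E] [BorelSpace E]
  [(volume : Measure E).IsAddHaarMeasure]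

theorem In_remn {σ : Sl E ι} {U : Set E} {θ m W a : E → ℝ} {ν : ι → E → ℝ} (ok : σ.Ok U θ)
    (hν : ∀ i, Sm U (ν i)) (hm : Sm U m) (hW : Sm U W) (ha : Te U a) :
    In U θ (remn σ ν m W a) = 0 := by
  have t : ∀ i ∈ Finset.univ, Te U fun z =>
      σ.D i (fn σ ν m W a i) z + σ.k i z * fn σ ν m W a i z := fun i _ =>
    (ok.tD (tfn ok hν hm hW ha i) i).add ok.op ((tfn ok hν hm hW ha i).mul_left ok.op (ok.ks i))
  have h := In_sum ok.op ok.ts Finset.univ t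
  refine h.trans (Finset.sum_eq_zero fun i _ => ?_)
  exact ibp ok (tfn ok hν hm hW ha i) i

/-- The new margins. -/
def tw (σ τ : Sl E ι) (ν : ι → E → ℝ) (W m₁ m₂ : E → ℝ) : Q8 E :=
  ⟨fun _ => 0, fun _ => 0, fun _ => 0, fun z => -(m₁ z + m₂ z),
    fun z => m₁ z * Dn σ ν W z ^ 2, fun z => m₂ z * Dn τ ν W z ^ 2, fun _ => 0, fun _ => 0⟩

/-- The new costs. -/
def tc (e₁ e₂ : E → ℝ) : Q8 E :=
  ⟨fun _ => 0, fun _ => 0, fun _ => 0, fun _ => 0, fun z => 2 * e₁ z, fun z => 2 * e₂ z,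
    fun _ => 0, fun _ => 0⟩

omit [MeasureSpace E] [FiniteDimensional ℝ E] [BorelSpace E]
  [(volume : Measure E).IsAddHaarMeasure] in
theorem tw_ct {σ τ : Sl E ι} {U : Set E} {θ W m₁ m₂ : E → ℝ} {ν : ι → E → ℝ} (ok : σ.Ok U θ)
    (ot : τ.Ok U θ) (hν : ∀ i, Sm U (ν i)) (hW : Sm U W) (h1 : Sm U m₁) (h2 : Sm U m₂) :
    (tw σ τ ν W m₁ m₂).Ct U :=
  ⟨continuousOn_const, continuousOn_const, continuousOn_const,
    (h1.add h2).neg.continuousOn, (h1.mul ((sDn ok hν hW).pow 2)).continuousOn,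
    (h2.mul ((sDn ot hν hW).pow 2)).continuousOn, continuousOn_const, continuousOn_const⟩

omit [NormedSpace ℝ E] [MeasureSpace E] [FiniteDimensional ℝ E] [BorelSpace E]
  [(volume : Measure E).IsAddHaarMeasure] in
theorem tc_ct {U : Set E} {e₁ e₂ : E → ℝ} (h1 : ContinuousOn e₁ U) (h2 : ContinuousOn e₂ U) :
    (tc e₁ e₂).Ct U :=
  ⟨continuousOn_const, continuousOn_const, continuousOn_const, continuousOn_const,
    continuousOn_const.mul h1, continuousOn_const.mul h2, continuousOn_const, continuousOn_const⟩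

omit [NormedSpace ℝ E] [MeasureSpace E] [FiniteDimensional ℝ E] [BorelSpace E]
  [(volume : Measure E).IsAddHaarMeasure] in
theorem ct_add {U : Set E} {p q : Q8 E} (hp : p.Ct U) (hq : q.Ct U) : (p + q).Ct U :=
  ⟨hp.κ.add hq.κ, hp.ζ₁.add hq.ζ₁, hp.ζ₂.add hq.ζ₂, hp.ζy.add hq.ζy, hp.w₁.add hq.w₁,
    hp.w₂.add hq.w₂, hp.wb.add hq.wb, hp.wc.add hq.wc⟩

omit [MeasureSpace E] [FiniteDimensional ℝ E] [BorelSpace E]
  [(volume : Measure E).IsAddHaarMeasure] in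
/-- `(ν · (X a - X b))² ≤ |X a - X b|²`. -/
theorem Yn_le {σ τ : Sl E ι} {ν : ι → E → ℝ} {W a b : E → ℝ} {z : E}
    (h : ∑ i, ν i z ^ 2 ≤ 1) : (Xn σ ν W a z - Xn τ ν W b z) ^ 2 ≤ nY σ τ W a b z := by
  have e : Xn σ ν W a z - Xn τ ν W b z =
      ∑ i, ν i z * (Ch.XX σ W a z i - Ch.XX τ W b z i) := by
    unfold Xn
    rw [← Finset.sum_sub_distrib]
    exact Finset.sum_congr rfl fun i _ => by ring
  have h1 := Finset.sum_mul_sq_le_sq_mul_sq Finset.univ (fun i => ν i z)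
    fun i => Ch.XX σ W a z i - Ch.XX τ W b z i
  have h2 : 0 ≤ nY σ τ W a b z := Finset.sum_nonneg fun _ _ => sq_nonneg _
  rw [e]
  refine h1.trans ?_
  have h3 := mul_le_mul_of_nonneg_right h h2
  rw [one_mul] at h3
  exact h3

/-- **The conversion in the direction `ν`.** -/
theorem conv {σ τ : Sl E ι} {U : Set E} {θ v₁ v₂ W χ kk m₁ m₂ e₁ e₂ : E → ℝ} {ν : ι → E → ℝ}
    (ok : σ.Ok U θ) (ot : τ.Ok U θ) (hv₁ : Sm U v₁) (hv₂ : Sm U v₂) (hW : Sm U W)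
    (hν : ∀ i, Sm U (ν i)) (hk : ContinuousOn kk U) (h1 : Sm U m₁) (h2 : Sm U m₂)
    (c1 : ContinuousOn e₁ U) (c2 : ContinuousOn e₂ U) {mg co : Q8 E} (cm : mg.Ct U)
    (cc : co.Ct U) (p1 : ∀ z ∈ U, 0 ≤ m₁ z) (p2 : ∀ z ∈ U, 0 ≤ m₂ z)
    (hs : ∀ z ∈ U, m₁ z + m₂ z ≤ kk z)
    (hn : ∀ z ∈ U, m₁ z + m₂ z ≠ 0 → ∑ i, ν i z ^ 2 ≤ 1)
    (E1 : ∀ z ∈ U, |Dn σ ν m₁ z * Dn σ ν W z + m₁ z * Dn σ ν (Dn σ ν W) z +
      m₁ z * Dn σ ν W z * dvn σ ν z| ≤ m₁ z * Dn σ ν W z ^ 2 / 2 + e₁ z)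
    (E2 : ∀ z ∈ U, |Dn τ ν m₂ z * Dn τ ν W z + m₂ z * Dn τ ν (Dn τ ν W) z +
      m₂ z * Dn τ ν W z * dvn τ ν z| ≤ m₂ z * Dn τ ν W z ^ 2 / 2 + e₂ z)
    (I0 : ∀ a b : E → ℝ, Te U a → Te U b → In U θ (mg.dens σ τ v₁ v₂ W a b) +
      In U θ (fun z => kk z * (Xn σ ν W a z + Xn τ ν W b z) ^ 2) -
      In U θ (co.dens σ τ v₁ v₂ W a b) ≤ In U θ fun z => χ z ^ 2 * dn σ τ v₁ v₂ W a b z) :
    Zone σ τ U θ v₁ v₂ W χ (mg + tw σ τ ν W m₁ m₂) (co + tc e₁ e₂) := by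
  intro a b ha hb
  refine le_trans ?_ (I0 a b ha hb)
  have hU := ok.op
  have i1 := Q8.int_dens ok ot hv₁ hv₂ hW ha hb (ct_add cm (tw_ct ok ot hν hW h1 h2))
  have i2 := Q8.int_dens ok ot hv₁ hv₂ hW ha hb (ct_add cc (tc_ct c1 c2))
  have i3 := Q8.int_dens ok ot hv₁ hv₂ hW ha hb cm
  have i4 := Q8.int_dens ok ot hv₁ hv₂ hW ha hb cc
  have tA := tXn ok hν hW ha
  have tB := tXn ot hν hW hb
  have i5 := ct_int hU ok.ts hk ((tA.add hU tB).sq hU)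
  have i6 := te_int hU ok.ts (tremn ok hν h1 hW ha)
  have i7 := te_int hU ok.ts (tremn ot hν h2 hW hb)
  have z6 : In U θ (remn σ ν m₁ W a) = 0 := In_remn ok hν h1 hW ha
  have z7 : In U θ (remn τ ν m₂ W b) = 0 := In_remn ot hν h2 hW hb
  have i35 : IntegrableOn (fun z => θ z * mg.dens σ τ v₁ v₂ W a b z +
      θ z * (kk z * (Xn σ ν W a z + Xn τ ν W b z) ^ 2)) U := i3.add i5
  have i352 : IntegrableOn (fun z => θ z * mg.dens σ τ v₁ v₂ W a b z +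
      θ z * (kk z * (Xn σ ν W a z + Xn τ ν W b z) ^ 2) +
      θ z * (co + tc e₁ e₂).dens σ τ v₁ v₂ W a b z) U := i35.add i2
  have i6' := i6.const_mul 2
  have i7' := i7.const_mul 2
  have i67 : IntegrableOn (fun z => 2 * (θ z * remn σ ν m₁ W a z) +
      2 * (θ z * remn τ ν m₂ W b z)) U := i6'.add i7'
  have key : (∫ z in U, (θ z * (mg + tw σ τ ν W m₁ m₂).dens σ τ v₁ v₂ W a b z +
      θ z * co.dens σ τ v₁ v₂ W a b z)) ≤ ∫ z in U, (θ z * mg.dens σ τ v₁ v₂ W a b z +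
        θ z * (kk z * (Xn σ ν W a z + Xn τ ν W b z) ^ 2) +
        θ z * (co + tc e₁ e₂).dens σ τ v₁ v₂ W a b z +
        (2 * (θ z * remn σ ν m₁ W a z) + 2 * (θ z * remn τ ν m₂ W b z))) := by
    refine setIntegral_mono_on (i1.add i4) (i352.add i67) hU.measurableSet fun z hz => ?_
    have hθ := (ok.tp z hz).le
    have q1 := pt_n ok hν h1 hW ha hz (p1 z hz) (E1 z hz)
    have q2 := pt_n ot hν h2 hW hb hz (p2 z hz) (E2 z hz)
    have q3 : (m₁ z + m₂ z) * (Xn σ ν W a z - Xn τ ν W b z) ^ 2 ≤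
        (m₁ z + m₂ z) * nY σ τ W a b z := by
      by_cases h0 : m₁ z + m₂ z = 0
      · rw [h0, zero_mul, zero_mul]
      · exact mul_le_mul_of_nonneg_left (Yn_le (hn z hz h0)) (add_nonneg (p1 z hz) (p2 z hz))
    have q4 := mul_le_mul_of_nonneg_right (hs z hz)
      (sq_nonneg (Xn σ ν W a z + Xn τ ν W b z))
    have q5 : 0 ≤ m₁ z * Xn τ ν W b z ^ 2 := mul_nonneg (p1 z hz) (sq_nonneg _)
    have q6 : 0 ≤ m₂ z * Xn σ ν W a z ^ 2 := mul_nonneg (p2 z hz) (sq_nonneg _)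
    have pt : (mg + tw σ τ ν W m₁ m₂).dens σ τ v₁ v₂ W a b z + co.dens σ τ v₁ v₂ W a b z ≤
        mg.dens σ τ v₁ v₂ W a b z + kk z * (Xn σ ν W a z + Xn τ ν W b z) ^ 2 +
        (co + tc e₁ e₂).dens σ τ v₁ v₂ W a b z +
        (2 * remn σ ν m₁ W a z + 2 * remn τ ν m₂ W b z) := by
      rw [Q8.dens_add, Q8.dens_add]
      have d1 : (tw σ τ ν W m₁ m₂).dens σ τ v₁ v₂ W a b z =
          -(m₁ z + m₂ z) * nY σ τ W a b z + m₁ z * Dn σ ν W z ^ 2 * a z ^ 2 +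
          m₂ z * Dn τ ν W z ^ 2 * b z ^ 2 := by
        unfold Q8.dens tw
        ring
      have d2 : (tc e₁ e₂).dens σ τ v₁ v₂ W a b z = 2 * e₁ z * a z ^ 2 + 2 * e₂ z * b z ^ 2 := by
        unfold Q8.dens tc
        ring
      rw [d1, d2]
      linarith [q1, q2, q3, q4, q5, q6]
    have := mul_le_mul_of_nonneg_left pt hθ
    linarith
  rw [integral_add i1 i4, integral_add i352 i67, integral_add i6' i7',
    integral_add i35 i2, integral_add i3 i5, integral_const_mul, integral_const_mul] at key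
  unfold In at z6 z7 ⊢
  rw [z6, z7] at key
  linarith

end Vale.Agent.P088.R2.H338.C
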