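import Vale.Agent.P088.R2.H338.E.Pay
import Mathlib.Analysis.SpecialFunctions.Sqrt

/-!
# P088, stage 3: linear combinations of zone inequalities, the ladder

`zone_mono`, `zone_comb`: `χ² = ∑ l_k ψ_k²` with constants `l_k ≥ 0`.
`ladder`: inside the zone `χ` small multiples `ε_k` of other zone inequalities (with the cut-offs
`χ ρ_k`) are used: `χ² = (χ (1 - ∑ ε_k ρ_k²)^(1/2))² + ∑ ε_k (χ ρ_k)²`.
-/

open MeasureTheory Set Filter
open scoped ContDiff Topology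

noncomputable section

namespace Vale.Agent.P088.R2.H338.C

open Vale.Agent.P088.R2.H961.GW Vale.Agent.P088.R2.H960.W Vale.Agent.P088.R2.H644
open Vale.Agent.P088.R2.H551.E

variable {E ι : Type*} [NormedAddCommGroup E] [NormedSpace ℝ E] [Fintype ι]
variable {σ τ : Sl E ι} {U : Set E} {θ v₁ v₂ W a b : E → ℝ}
variable [MeasureSpace E] [FiniteDimensional ℝ E] [BorelSpace E]
  [(volume : Measure E).IsAddHaarMeasure]

theorem int_w (ok : σ.Ok U θ) (ot : τ.Ok U θ) (hv₁ : Sm U v₁) (hv₂ : Sm U v₂)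
    (hW : Sm U W) (ha : Te U a) (hb : Te U b) {χ : E → ℝ} (hχ : Sm U χ) :
    IntegrableOn (fun z => θ z * (χ z ^ 2 * dn σ τ v₁ v₂ W a b z)) U :=
  ct_int ok.op ok.ts (hχ.continuousOn.pow 2) (tdn ok ot hv₁ hv₂ hW ha hb)

/-- Smaller margin, larger cost. -/
theorem zone_mono (ok : σ.Ok U θ) (ot : τ.Ok U θ) (hv₁ : Sm U v₁) (hv₂ : Sm U v₂)
    (hW : Sm U W) {χ : E → ℝ} {mg co M C : Q8 E} (hz : Zone σ τ U θ v₁ v₂ W χ mg co)
    (cm : mg.Ct U) (cc : co.Ct U) (cM : M.Ct U) (cC : C.Ct U)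
    (h : ∀ z ∈ U, ∀ a b : E → ℝ, M.dens σ τ v₁ v₂ W a b z + co.dens σ τ v₁ v₂ W a b z ≤
      mg.dens σ τ v₁ v₂ W a b z + C.dens σ τ v₁ v₂ W a b z) :
    Zone σ τ U θ v₁ v₂ W χ M C := by
  intro a b ha hb
  have i1 := Q8.int_dens ok ot hv₁ hv₂ hW ha hb cM
  have i2 := Q8.int_dens ok ot hv₁ hv₂ hW ha hb cc
  have i3 := Q8.int_dens ok ot hv₁ hv₂ hW ha hb cm
  have i4 := Q8.int_dens ok ot hv₁ hv₂ hW ha hb cC
  have k : (∫ z in U, (θ z * M.dens σ τ v₁ v₂ W a b z + θ z * co.dens σ τ v₁ v₂ W a b z)) ≤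
      ∫ z in U, (θ z * mg.dens σ τ v₁ v₂ W a b z + θ z * C.dens σ τ v₁ v₂ W a b z) := by
    refine setIntegral_mono_on (i1.add i2) (i3.add i4) ok.op.measurableSet fun z hz => ?_
    have := mul_le_mul_of_nonneg_left (h z hz a b) (ok.tp z hz).le
    linarith
  rw [integral_add i1 i2, integral_add i3 i4] at k
  have := hz a b ha hb
  unfold In at this ⊢
  linarith

/-- **Linear combinations.** -/
theorem zone_comb (ok : σ.Ok U θ) (ot : τ.Ok U θ) (hv₁ : Sm U v₁) (hv₂ : Sm U v₂)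
    (hW : Sm U W) {α : Type*} (S : Finset α) {l : α → ℝ} (hl : ∀ k ∈ S, 0 ≤ l k)
    {ψ : α → E → ℝ} (hψ : ∀ k ∈ S, Sm U (ψ k)) {χ : E → ℝ}
    (hχ : ∀ z ∈ U, χ z ^ 2 = ∑ k ∈ S, l k * ψ k z ^ 2) {mg co : α → Q8 E} {M C : Q8 E}
    (cg : ∀ k ∈ S, (mg k).Ct U) (cc : ∀ k ∈ S, (co k).Ct U) (cM : M.Ct U) (cC : C.Ct U)
    (zone : ∀ k ∈ S, Zone σ τ U θ v₁ v₂ W (ψ k) (mg k) (co k))
    (h : ∀ z ∈ U, ∀ a b : E → ℝ, M.dens σ τ v₁ v₂ W a b z +
      ∑ k ∈ S, l k * (co k).dens σ τ v₁ v₂ W a b z ≤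
      ∑ k ∈ S, l k * (mg k).dens σ τ v₁ v₂ W a b z + C.dens σ τ v₁ v₂ W a b z) :
    Zone σ τ U θ v₁ v₂ W χ M C := by
  intro a b ha hb
  have i1 := Q8.int_dens ok ot hv₁ hv₂ hW ha hb cM
  have i4 := Q8.int_dens ok ot hv₁ hv₂ hW ha hb cC
  have i2 : ∀ k ∈ S, IntegrableOn
      (fun z => l k * (θ z * (co k).dens σ τ v₁ v₂ W a b z)) U := fun k hk =>
    (Q8.int_dens ok ot hv₁ hv₂ hW ha hb (cc k hk)).const_mul (l k)
  have i3 : ∀ k ∈ S, IntegrableOn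
      (fun z => l k * (θ z * (mg k).dens σ τ v₁ v₂ W a b z)) U := fun k hk =>
    (Q8.int_dens ok ot hv₁ hv₂ hW ha hb (cg k hk)).const_mul (l k)
  have i5 : ∀ k ∈ S, IntegrableOn
      (fun z => l k * (θ z * (ψ k z ^ 2 * dn σ τ v₁ v₂ W a b z))) U := fun k hk =>
    (int_w ok ot hv₁ hv₂ hW ha hb (hψ k hk)).const_mul (l k)
  have k : (∫ z in U, (θ z * M.dens σ τ v₁ v₂ W a b z +
      ∑ k ∈ S, l k * (θ z * (co k).dens σ τ v₁ v₂ W a b z))) ≤
      ∫ z in U, (∑ k ∈ S, l k * (θ z * (mg k).dens σ τ v₁ v₂ W a b z) +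
        θ z * C.dens σ τ v₁ v₂ W a b z) := by
    refine setIntegral_mono_on (i1.add (integrable_finsetSum S i2))
      ((integrable_finsetSum S i3).add i4) ok.op.measurableSet fun z hz => ?_
    have h1 := mul_le_mul_of_nonneg_left (h z hz a b) (ok.tp z hz).le
    rw [mul_add, mul_add, Finset.mul_sum, Finset.mul_sum] at h1
    simp only [mul_left_comm (θ z)] at h1
    exact h1
  rw [integral_add i1 (integrable_finsetSum S i2),
    integral_add (integrable_finsetSum S i3) i4, integral_finsetSum S i2,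
    integral_finsetSum S i3] at k
  have e : (In U θ fun z => χ z ^ 2 * dn σ τ v₁ v₂ W a b z) =
      ∑ k ∈ S, l k * In U θ fun z => ψ k z ^ 2 * dn σ τ v₁ v₂ W a b z := by
    have e1 : ∀ k, l k * (In U θ fun z => ψ k z ^ 2 * dn σ τ v₁ v₂ W a b z) =
        ∫ z in U, l k * (θ z * (ψ k z ^ 2 * dn σ τ v₁ v₂ W a b z)) := fun k =>
      (integral_const_mul _ _).symm
    rw [Finset.sum_congr rfl fun k _ => e1 k, ← integral_finsetSum S i5]
    refine setIntegral_congr_fun ok.op.measurableSet fun z hz => ?_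
    simp only [hχ z hz, Finset.sum_mul, Finset.mul_sum]
    exact Finset.sum_congr rfl fun k _ => by ring
  rw [e]
  have hs := Finset.sum_le_sum fun k hk => mul_le_mul_of_nonneg_left (zone k hk a b ha hb)
    (hl k hk)
  simp only [mul_sub, Finset.sum_sub_distrib] at hs
  simp only [integral_const_mul] at k
  unfold In at hs ⊢
  linarith

/-- `(1 - s)^(1/2)`. -/
def rt (s : ℝ) : ℝ := Real.sqrt (1 - s)

theorem rt_sq {s : ℝ} (h : s ≤ 1) : rt s ^ 2 = 1 - s := Real.sq_sqrt (by linarith)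

omit [MeasureSpace E] [FiniteDimensional ℝ E] [BorelSpace E]
  [(volume : Measure E).IsAddHaarMeasure] in
theorem sm_rt {f : E → ℝ} (hf : Sm U f) (h : ∀ z ∈ U, f z ≤ 1 / 2) :
    Sm U fun z => rt (f z) := by
  refine (contDiffOn_const.sub hf).sqrt fun z hz => ?_
  have := h z hz
  linarith

/-- **The ladder**: the zone `χ` with small multiples of other zone inequalities inside. -/
theorem ladder (ok : σ.Ok U θ) (ot : τ.Ok U θ) (hv₁ : Sm U v₁) (hv₂ : Sm U v₂)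
    (hW : Sm U W) {α : Type*} [DecidableEq α] (S : Finset α) {ε : α → ℝ}
    (hε : ∀ k ∈ S, 0 ≤ ε k) {ρ : α → E → ℝ} (hρ : ∀ k ∈ S, Sm U (ρ k)) {χ : E → ℝ}
    (hχ : Sm U χ) (hs : ∀ z ∈ U, ∑ k ∈ S, ε k * ρ k z ^ 2 ≤ 1 / 2)
    {mg co : α → Q8 E} {M₀ c₀ M C : Q8 E} (cM₀ : M₀.Ct U) (cc₀ : c₀.Ct U)
    (cg : ∀ k ∈ S, (mg k).Ct U) (cc : ∀ k ∈ S, (co k).Ct U) (cM : M.Ct U) (cC : C.Ct U)
    (zone₀ : Zone σ τ U θ v₁ v₂ W (fun z => χ z * rt (∑ k ∈ S, ε k * ρ k z ^ 2)) M₀ c₀)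
    (zone : ∀ k ∈ S, Zone σ τ U θ v₁ v₂ W (fun z => χ z * ρ k z) (mg k) (co k))
    (h : ∀ z ∈ U, ∀ a b : E → ℝ, M.dens σ τ v₁ v₂ W a b z +
      (c₀.dens σ τ v₁ v₂ W a b z + ∑ k ∈ S, ε k * (co k).dens σ τ v₁ v₂ W a b z) ≤
      (M₀.dens σ τ v₁ v₂ W a b z + ∑ k ∈ S, ε k * (mg k).dens σ τ v₁ v₂ W a b z) +
        C.dens σ τ v₁ v₂ W a b z) :
    Zone σ τ U θ v₁ v₂ W χ M C := by
  classical
  have hsm : Sm U fun z => ∑ k ∈ S, ε k * ρ k z ^ 2 :=
    Sm.sum S fun k hk => contDiffOn_const.mul ((hρ k hk).pow 2)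
  have st : ∀ F : Option α → ℝ, ∑ k ∈ Finset.insertNone S, F k = F none + ∑ k ∈ S, F (some k) :=
    fun F => Finset.sum_insertNone F S
  refine zone_comb ok ot hv₁ hv₂ hW (Finset.insertNone S)
    (l := fun k => Option.elim k 1 ε)
    (ψ := fun k => Option.elim k (fun z => χ z * rt (∑ k ∈ S, ε k * ρ k z ^ 2))
      (fun k z => χ z * ρ k z))
    (mg := fun k => Option.elim k M₀ mg) (co := fun k => Option.elim k c₀ co)
    ?_ ?_ ?_ ?_ ?_ cM cC ?_ ?_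
  · rintro (_ | k) hk
    · exact zero_le_one
    · exact hε k (Finset.some_mem_insertNone.1 hk)
  · rintro (_ | k) hk
    · exact hχ.mul (sm_rt hsm hs)
    · exact hχ.mul (hρ k (Finset.some_mem_insertNone.1 hk))
  · intro z hz
    rw [st]
    simp only [Option.elim]
    rw [mul_pow, rt_sq ((hs z hz).trans (by norm_num))]
    have e : ∑ k ∈ S, ε k * (χ z * ρ k z) ^ 2 = χ z ^ 2 * ∑ k ∈ S, ε k * ρ k z ^ 2 := by
      rw [Finset.mul_sum]
      exact Finset.sum_congr rfl fun k _ => by ring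
    rw [e]
    ring
  · rintro (_ | k) hk
    · exact cM₀
    · exact cg k (Finset.some_mem_insertNone.1 hk)
  · rintro (_ | k) hk
    · exact cc₀
    · exact cc k (Finset.some_mem_insertNone.1 hk)
  · rintro (_ | k) hk
    · exact zone₀
    · exact zone k (Finset.some_mem_insertNone.1 hk)
  · intro z hz a b
    rw [st, st]
    simp only [Option.elim, one_mul]
    exact h z hz a b

end Vale.Agent.P088.R2.H338.C
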