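import Vale.Agent.P088.R2.H338.C.Tub

/-!
# P088, stage 3: the hypotheses of the tube norm, one slot
-/

open MeasureTheory Set Filter
open scoped ContDiff Topology

noncomputable section

namespace Vale.Agent.P088.R2.H338.C

open Vale.Agent.P088.R2.H961.GW Vale.Agent.P088.R2.H960.W Vale.Agent.P088.R2.H644
open Vale.Agent.P088.R2.H551.E Vale.Agent.P088.R2.H972.E
open Vale.Agent.P088.R2.H86.Z (El)

variable {E ι : Type*} [NormedAddCommGroup E] [NormedSpace ℝ E] [Fintype ι]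

/-- The facts of one slot at a point. -/
structure SF (σ : Sl E ι) (ν : ι → E → ℝ) (W N ρ : E → ℝ) (A : ℝ) (z : E) : Prop where
  w1 : ∀ i, |σ.D i W z| ≤ A * N z
  w2 : ∀ i j, |σ.D i (σ.D j W) z| ≤ A * N z
  n1 : ∀ i, |σ.D i N z| ≤ A * N z
  ν0 : ∑ i, ν i z ^ 2 ≤ 1
  ν1 : ∀ i j, |σ.D i (ν j) z| ≤ 1
  k1 : ∀ i, |σ.k i z| ≤ 1
  s0 : ∀ i j, |σ.s i j z| ≤ 2
  s1 : ∀ i j, |σ.D i (σ.s i j) z| ≤ 1
  ρ1 : ∀ i, |σ.D i ρ z| ≤ A
  ρ0 : 0 ≤ ρ z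
  ρ2 : ρ z ≤ 1
  v : ρ z ≠ 0 → N z / 8 ≤ |Dn σ ν W z|

section slot

variable {σ : Sl E ι} {U : Set E} {θ W N ρ : E → ℝ} {ν : ι → E → ℝ} {A c : ℝ} {z : E}

theorem nu_le (h : ∑ i, ν i z ^ 2 ≤ 1) (i : ι) : |ν i z| ≤ 1 := by
  have h1 : ν i z ^ 2 ≤ ∑ i, ν i z ^ 2 :=
    Finset.single_le_sum (f := fun i => ν i z ^ 2) (fun _ _ => sq_nonneg _) (Finset.mem_univ i)
  rw [← sq_le_one_iff_abs_le_one]
  exact h1.trans h

theorem Dn_le (h : ∑ i, ν i z ^ 2 ≤ 1) {f : E → ℝ} {B : ℝ} (hf : ∀ i, |σ.D i f z| ≤ B) :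
    |Dn σ ν f z| ≤ Fintype.card ι * B := by
  unfold Dn
  refine (Finset.abs_sum_le_sum_abs _ _).trans ?_
  have h1 : ∀ i ∈ Finset.univ, |ν i z * σ.D i f z| ≤ B := fun i _ => by
    rw [abs_mul]
    have := mul_le_mul (nu_le h i) (hf i) (abs_nonneg _) zero_le_one
    linarith
  refine (Finset.sum_le_card_nsmul _ _ _ h1).trans (le_of_eq ?_)
  rw [Finset.card_univ, nsmul_eq_mul]

theorem DDn_le (ok : σ.Ok U θ) (hz : z ∈ U) (hν : ∀ i, Sm U (ν i)) (hW : Sm U W)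
    (h : SF σ ν W N ρ A z) :
    |Dn σ ν (Dn σ ν W) z| ≤ Fintype.card ι * (Fintype.card ι * (2 * (A * N z))) := by
  refine Dn_le h.ν0 fun i => ?_
  have e : σ.D i (Dn σ ν W) z = ∑ j, (σ.D i (ν j) z * σ.D j W z + ν j z * σ.D i (σ.D j W) z) := by
    have e1 : σ.D i (Dn σ ν W) z = σ.D i (fun z => ∑ j, ν j z * σ.D j W z) z := rfl
    rw [e1, D_sum σ ok.op Finset.univ (fun j _ => (hν j).mul (ok.sD hW j)) i hz]
    exact Finset.sum_congr rfl fun j _ => D_mul σ ok.op (hν j) (ok.sD hW j) i hz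
  rw [e]
  refine (Finset.abs_sum_le_sum_abs _ _).trans ?_
  have h1 : ∀ j ∈ Finset.univ, |σ.D i (ν j) z * σ.D j W z + ν j z * σ.D i (σ.D j W) z| ≤
      2 * (A * N z) := fun j _ => by
    refine (abs_add_le _ _).trans ?_
    rw [abs_mul, abs_mul]
    have a1 := mul_le_mul (h.ν1 i j) (h.w1 j) (abs_nonneg _) zero_le_one
    have a2 := mul_le_mul (nu_le h.ν0 j) (h.w2 i j) (abs_nonneg _) zero_le_one
    linarith
  refine (Finset.sum_le_card_nsmul _ _ _ h1).trans (le_of_eq ?_)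
  rw [Finset.card_univ, nsmul_eq_mul]

theorem dvn_le (h : SF σ ν W N ρ A z) : |dvn σ ν z| ≤ Fintype.card ι * 2 := by
  unfold dvn
  refine (Finset.abs_sum_le_sum_abs _ _).trans ?_
  have h1 : ∀ i ∈ Finset.univ, |σ.D i (ν i) z + σ.k i z * ν i z| ≤ 2 := fun i _ => by
    refine (abs_add_le _ _).trans ?_
    rw [abs_mul]
    have a1 := h.ν1 i i
    have a2 := mul_le_mul (h.k1 i) (nu_le h.ν0 i) (abs_nonneg _) zero_le_one
    linarith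
  refine (Finset.sum_le_card_nsmul _ _ _ h1).trans (le_of_eq ?_)
  rw [Finset.card_univ, nsmul_eq_mul]

/-- The derivatives of `c N ρ²`. -/
theorem D_nr (ok : σ.Ok U θ) (hz : z ∈ U) (hN : Sm U N) (hρ : Sm U ρ) (c : ℝ) (i : ι) :
    σ.D i (fun z => c * (N z * ρ z ^ 2)) z =
      c * (σ.D i N z * ρ z ^ 2 + N z * (2 * ρ z * σ.D i ρ z)) := by
  rw [D_cmul σ ok.op c (hN.mul (hρ.pow 2)) i hz]
  have e : σ.D i (fun z => N z * ρ z ^ 2) z =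
      σ.D i N z * ρ z ^ 2 + N z * σ.D i (fun z => ρ z ^ 2) z := D_mul σ ok.op hN (hρ.pow 2) i hz
  rw [e, D_sq σ ok.op hρ i hz]

theorem Dn_nr (ok : σ.Ok U θ) (hz : z ∈ U) (hN : Sm U N) (hρ : Sm U ρ) (c : ℝ) :
    Dn σ ν (fun z => c * (N z * ρ z ^ 2)) z =
      c * (Dn σ ν N z * ρ z ^ 2 + 2 * (N z * ρ z * Dn σ ν ρ z)) := by
  have h : ∀ i, ν i z * σ.D i (fun z => c * (N z * ρ z ^ 2)) z =
      c * ρ z ^ 2 * (ν i z * σ.D i N z) + 2 * c * N z * ρ z * (ν i z * σ.D i ρ z) := fun i => by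
    rw [D_nr ok hz hN hρ c i]
    ring
  unfold Dn
  simp only [h, Finset.sum_add_distrib, ← Finset.mul_sum]
  ring

/-- One factor. -/
theorem d_num1 {P w m A N : ℝ} (hN : 0 < N) (a1 : |P| ≤ m * (A * N)) (b1 : 12 * (m * A) ≤ |w|) :
    |P * w| ≤ 1 / 12 * (N * w ^ 2) := by
  have w0 := abs_nonneg w
  have k1 : |P| * |w| ≤ m * (A * N) * |w| := mul_le_mul_of_nonneg_right a1 w0
  have k2 : 12 * (m * A) * |w| ≤ |w| * |w| := mul_le_mul_of_nonneg_right b1 w0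
  have k3 := mul_le_mul_of_nonneg_left k2 hN.le
  rw [abs_mul, ← sq_abs w]
  linarith

theorem d_num2 {D w m A N : ℝ} (hN : 0 < N) (a2 : |D| ≤ m * (m * (2 * (A * N))))
    (b3 : 24 * (m ^ 2 * (A * N)) ≤ w ^ 2) : |N * D| ≤ 1 / 12 * (N * w ^ 2) := by
  rw [abs_mul, abs_of_pos hN]
  have k1 : |D| ≤ 1 / 12 * w ^ 2 := a2.trans (by linarith)
  have := mul_le_mul_of_nonneg_left k1 hN.le
  linarith

theorem d_num3 {v w m N : ℝ} (hN : 0 < N) (a3 : |v| ≤ m * 2) (b2 : 24 * m ≤ |w|) :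
    |N * w * v| ≤ 1 / 12 * (N * w ^ 2) := by
  have w0 := abs_nonneg w
  have k1 : |w| * |v| ≤ |w| * (m * 2) := mul_le_mul_of_nonneg_left a3 w0
  have k2 : 24 * m * |w| ≤ |w| * |w| := mul_le_mul_of_nonneg_right b2 w0
  have k3 : |w| * |v| ≤ 1 / 12 * (|w| * |w|) := by linarith
  have k4 := mul_le_mul_of_nonneg_left k3 hN.le
  rw [abs_mul, abs_mul, abs_of_pos hN, ← sq_abs w]
  linarith

theorem d_num4 {Q w N r : ℝ} (hN : 0 < N) :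
    |2 * (N * r * Q) * w| ≤ 1 / 8 * (N * r ^ 2 * w ^ 2) + 8 * (N * Q ^ 2) := by
  rw [abs_le]
  have j1 : 0 ≤ N * (r * w + 8 * Q) ^ 2 := by positivity
  have j2 : 0 ≤ N * (r * w - 8 * Q) ^ 2 := by positivity
  constructor <;> nlinarith [j1, j2]

theorem d_num {P Q D v w m A N r c : ℝ} (hc : 0 ≤ c) (hN : 0 < N) (a1 : |P| ≤ m * (A * N))
    (b1 : 12 * (m * A) ≤ |w|) (a2 : |D| ≤ m * (m * (2 * (A * N))))
    (b3 : 24 * (m ^ 2 * (A * N)) ≤ w ^ 2) (a3 : |v| ≤ m * 2) (b2 : 24 * m ≤ |w|) :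
    |c * (P * r ^ 2 + 2 * (N * r * Q)) * w + c * (N * r ^ 2) * D + c * (N * r ^ 2) * w * v| ≤
      3 / 8 * (c * (N * r ^ 2) * w ^ 2) + 8 * (c * (N * Q ^ 2)) := by
  have e : c * (P * r ^ 2 + 2 * (N * r * Q)) * w + c * (N * r ^ 2) * D +
      c * (N * r ^ 2) * w * v = c * (r ^ 2 * (P * w) + 2 * (N * r * Q) * w +
        r ^ 2 * (N * D) + r ^ 2 * (N * w * v)) := by ring
  rw [e, abs_mul, abs_of_nonneg hc]
  have r2 := sq_nonneg r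
  have k1 : |r ^ 2 * (P * w)| ≤ r ^ 2 * (1 / 12 * (N * w ^ 2)) := by
    rw [abs_mul, abs_of_nonneg r2]
    exact mul_le_mul_of_nonneg_left (d_num1 hN a1 b1) r2
  have k3 : |r ^ 2 * (N * D)| ≤ r ^ 2 * (1 / 12 * (N * w ^ 2)) := by
    rw [abs_mul, abs_of_nonneg r2]
    exact mul_le_mul_of_nonneg_left (d_num2 hN a2 b3) r2
  have k4 : |r ^ 2 * (N * w * v)| ≤ r ^ 2 * (1 / 12 * (N * w ^ 2)) := by
    rw [abs_mul, abs_of_nonneg r2]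
    exact mul_le_mul_of_nonneg_left (d_num3 hN a3 b2) r2
  have k2 : |2 * (N * r * Q) * w| ≤ 1 / 8 * (N * r ^ 2 * w ^ 2) + 8 * (N * Q ^ 2) := d_num4 hN
  have s1 := abs_add_le (r ^ 2 * (P * w) + 2 * (N * r * Q) * w + r ^ 2 * (N * D))
    (r ^ 2 * (N * w * v))
  have s2 := abs_add_le (r ^ 2 * (P * w) + 2 * (N * r * Q) * w) (r ^ 2 * (N * D))
  have s3 := abs_add_le (r ^ 2 * (P * w)) (2 * (N * r * Q) * w)
  have e5 : |r ^ 2 * (P * w) + 2 * (N * r * Q) * w + r ^ 2 * (N * D) + r ^ 2 * (N * w * v)| ≤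
      3 / 8 * (N * r ^ 2 * w ^ 2) + 8 * (N * Q ^ 2) := by linarith
  have := mul_le_mul_of_nonneg_left e5 hc
  refine this.trans (le_of_eq ?_)
  ring

/-- The numbers at a point where `N` is large. -/
theorem b_num {m A N w : ℝ} (hA : 1 ≤ A) (hm : 1 ≤ m) (hN : 1536 * m ^ 2 * A ≤ N)
    (v : N / 8 ≤ |w|) :
    0 < N ∧ 12 * (m * A) ≤ |w| ∧ 24 * m ≤ |w| ∧ 24 * (m ^ 2 * (A * N)) ≤ w ^ 2 := by
  have hA0 : 0 < A := by linarith
  have hm0 : 0 < m := by linarith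
  have m2 : m ≤ m ^ 2 := by nlinarith
  have p1 : m * A ≤ m ^ 2 * A := mul_le_mul_of_nonneg_right m2 hA0.le
  have p2 : m ≤ m * A := by nlinarith
  have p3 : 0 < m * A := by positivity
  have hN' : 0 < N := by nlinarith
  refine ⟨hN', by linarith, by linarith, ?_⟩
  have k1 : (N / 8) ^ 2 ≤ |w| ^ 2 := pow_le_pow_left₀ (by linarith) v 2
  have k2 := mul_le_mul_of_nonneg_right hN hN'.le
  rw [sq_abs] at k1
  nlinarith

/-- The condition `d₁`, `d₂` of the direction. -/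
theorem d_cond (ok : σ.Ok U θ) (hz : z ∈ U) (hν : ∀ i, Sm U (ν i)) (hW : Sm U W) (hN : Sm U N)
    (hρ : Sm U ρ) (hc : 0 ≤ c) (hA : 1 ≤ A) (hm : 1 ≤ (Fintype.card ι : ℝ)) (hN0 : 0 ≤ N z)
    (h : ρ z ≠ 0 → SF σ ν W N ρ A z ∧ 1536 * (Fintype.card ι : ℝ) ^ 2 * A ≤ N z) :
    |Dn σ ν (fun z => c * (N z * ρ z ^ 2)) z * Dn σ ν W z +
      c * (N z * ρ z ^ 2) * Dn σ ν (Dn σ ν W) z +
      c * (N z * ρ z ^ 2) * Dn σ ν W z * dvn σ ν z| ≤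
      3 / 8 * (c * (N z * ρ z ^ 2) * Dn σ ν W z ^ 2) +
        8 * (c * (N z * Dn σ ν ρ z ^ 2)) := by
  rw [Dn_nr ok hz hN hρ c]
  by_cases h0 : ρ z = 0
  · have : 0 ≤ 8 * (c * (N z * Dn σ ν ρ z ^ 2)) := by positivity
    simp only [h0]
    simpa using this
  obtain ⟨hf, hN1⟩ := h h0
  obtain ⟨q1, q2, q3, q4⟩ := b_num hA hm hN1 (hf.v h0)
  exact d_num hc q1 (Dn_le hf.ν0 hf.n1) q2 (DDn_le ok hz hν hW hf) q4 (dvn_le hf) q3

end slot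

end Vale.Agent.P088.R2.H338.C
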