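import Vale.Agent.P088.R2.H338.C.ThA

/-!
# P088, stage 3: the hypotheses of the tube norm, energy of one slot
-/

open MeasureTheory Set Filter
open scoped ContDiff Topology

noncomputable section

namespace Vale.Agent.P088.R2.H338.C

open Vale.Agent.P088.R2.H961.GW Vale.Agent.P088.R2.H960.W Vale.Agent.P088.R2.H644
open Vale.Agent.P088.R2.H551.E Vale.Agent.P088.R2.H972.E
open Vale.Agent.P088.R2.H86.Z (El)

variable {E ι : Type*} [NormedAddCommGroup E] [NormedSpace ℝ E] [Fintype ι]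

/-- The function `r` of the weight `c N ρ²`. -/
def rw' (m c A : ℝ) (N ρ : E → ℝ) (z : E) : ℝ := if ρ z = 0 then 0 else 20 * m * c * A ^ 2 * N z

section slot

variable {σ : Sl E ι} {U : Set E} {θ v W N ρ : E → ℝ} {ν : ι → E → ℝ} {A c c₁ δ : ℝ} {z : E}

theorem sum_sq_le {f : ι → ℝ} {B : ℝ} (hf : ∀ i, f i ^ 2 ≤ B) :
    ∑ i, f i ^ 2 ≤ Fintype.card ι * B := by
  refine (Finset.sum_le_card_nsmul _ _ _ fun i _ => hf i).trans (le_of_eq ?_)
  rw [Finset.card_univ, nsmul_eq_mul]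

theorem r_one {P N r D A c : ℝ} (hr : 0 ≤ r) (hr1 : r ≤ 1) (hN : 0 ≤ N)
    (h1 : |P| ≤ A * N) (h2 : |D| ≤ A) :
    (c * (P * r ^ 2 + N * (2 * r * D))) ^ 2 ≤ 9 * (c ^ 2 * r ^ 2 * (A ^ 2 * N ^ 2)) := by
  have hA : 0 ≤ A := (abs_nonneg D).trans h2
  have k1 : |P * r + 2 * (N * D)| ≤ 3 * (A * N) := by
    refine (abs_add_le _ _).trans ?_
    rw [abs_mul, abs_mul, abs_mul, abs_of_nonneg hr, abs_of_nonneg hN, abs_two]
    have a1 : |P| * r ≤ A * N * 1 := mul_le_mul h1 hr1 hr (by positivity)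
    have a2 : N * |D| ≤ N * A := mul_le_mul_of_nonneg_left h2 hN
    linarith
  have k2 : (P * r + 2 * (N * D)) ^ 2 ≤ (3 * (A * N)) ^ 2 := by
    rw [← sq_abs (P * r + 2 * (N * D))]
    exact pow_le_pow_left₀ (abs_nonneg _) k1 2
  have e : (c * (P * r ^ 2 + N * (2 * r * D))) ^ 2 =
      c ^ 2 * r ^ 2 * (P * r + 2 * (N * D)) ^ 2 := by ring
  rw [e]
  have := mul_le_mul_of_nonneg_left k2 (by positivity : 0 ≤ c ^ 2 * r ^ 2)
  refine this.trans (le_of_eq ?_)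
  ring

theorem r_cond (ok : σ.Ok U θ) (hz : z ∈ U) (hN : Sm U N) (hρ : Sm U ρ) (el : El σ z)
    (hc : 0 ≤ c) (hN0 : 0 ≤ N z) (h : ρ z ≠ 0 → SF σ ν W N ρ A z) :
    0 ≤ rw' (Fintype.card ι) c A N ρ z ∧
      σ.Γ (fun z => c * (N z * ρ z ^ 2)) (fun z => c * (N z * ρ z ^ 2)) z ≤
        c * (N z * ρ z ^ 2) * rw' (Fintype.card ι) c A N ρ z := by
  have hup := el.up fun i => σ.D i (fun z => c * (N z * ρ z ^ 2)) z
  have hG : σ.Γ (fun z => c * (N z * ρ z ^ 2)) (fun z => c * (N z * ρ z ^ 2)) z ≤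
      2 * ∑ i, σ.D i (fun z => c * (N z * ρ z ^ 2)) z ^ 2 := hup
  by_cases h0 : ρ z = 0
  · have e : ∀ i, σ.D i (fun z => c * (N z * ρ z ^ 2)) z = 0 := fun i => by
      rw [D_nr ok hz hN hρ c i, h0]
      ring
    simp only [e] at hG
    unfold rw'
    rw [if_pos h0]
    refine ⟨le_rfl, ?_⟩
    simpa using hG
  · have hf := h h0
    have hm : 0 ≤ (Fintype.card ι : ℝ) := Nat.cast_nonneg _
    unfold rw'
    rw [if_neg h0]
    refine ⟨by positivity, hG.trans ?_⟩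
    have k : ∀ i, σ.D i (fun z => c * (N z * ρ z ^ 2)) z ^ 2 ≤
        9 * (c ^ 2 * ρ z ^ 2 * (A ^ 2 * N z ^ 2)) := fun i => by
      rw [D_nr ok hz hN hρ c i]
      exact r_one hf.ρ0 hf.ρ2 hN0 (hf.n1 i) (hf.ρ1 i)
    have k2 := mul_le_mul_of_nonneg_left (sum_sq_le k) (by norm_num : (0 : ℝ) ≤ 2)
    refine k2.trans ?_
    have p : 0 ≤ (Fintype.card ι : ℝ) * (c ^ 2 * ρ z ^ 2 * (A ^ 2 * N z ^ 2)) := by positivity
    nlinarith [p]

theorem F_le (el : El σ z) (h : SF σ ν W N ρ A z) :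
    σ.F W z ≤ 2 * (Fintype.card ι * (A ^ 2 * N z ^ 2)) := by
  have hup := el.up fun i => σ.D i W z
  have k : ∀ i, σ.D i W z ^ 2 ≤ A ^ 2 * N z ^ 2 := fun i => by
    have := pow_le_pow_left₀ (abs_nonneg _) (h.w1 i) 2
    rw [sq_abs] at this
    nlinarith
  have k2 := mul_le_mul_of_nonneg_left (sum_sq_le k) (by norm_num : (0 : ℝ) ≤ 2)
  exact hup.trans k2

theorem L_le (h : SF σ ν W N ρ A z) :
    |σ.Λ W z| ≤ Fintype.card ι * (Fintype.card ι * (5 * (A * N z))) := by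
  unfold Sl.Λ
  refine (Finset.abs_sum_le_sum_abs _ _).trans ?_
  have h1 : ∀ i ∈ Finset.univ, |∑ j, (σ.s i j z * (σ.D i (σ.D j W) z + σ.k i z * σ.D j W z) +
      σ.D i (σ.s i j) z * σ.D j W z)| ≤ Fintype.card ι * (5 * (A * N z)) := fun i _ => by
    refine (Finset.abs_sum_le_sum_abs _ _).trans ?_
    have h2 : ∀ j ∈ Finset.univ, |σ.s i j z * (σ.D i (σ.D j W) z + σ.k i z * σ.D j W z) +
        σ.D i (σ.s i j) z * σ.D j W z| ≤ 5 * (A * N z) := fun j _ => by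
      refine (abs_add_le _ _).trans ?_
      rw [abs_mul, abs_mul]
      have a0 : |σ.D i (σ.D j W) z + σ.k i z * σ.D j W z| ≤ 2 * (A * N z) := by
        refine (abs_add_le _ _).trans ?_
        rw [abs_mul]
        have := mul_le_mul (h.k1 i) (h.w1 j) (abs_nonneg _) zero_le_one
        linarith [h.w2 i j]
      have a1 := mul_le_mul (h.s0 i j) a0 (abs_nonneg _) (by norm_num)
      have a2 := mul_le_mul (h.s1 i j) (h.w1 j) (abs_nonneg _) zero_le_one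
      linarith
    refine (Finset.sum_le_card_nsmul _ _ _ h2).trans (le_of_eq ?_)
    rw [Finset.card_univ, nsmul_eq_mul]
  refine (Finset.sum_le_card_nsmul _ _ _ h1).trans (le_of_eq ?_)
  rw [Finset.card_univ, nsmul_eq_mul]

theorem Q_num {m A N c c₁ δ r w F L : ℝ} (hA : 1 ≤ A) (hm : 1 ≤ m) (hc : 0 ≤ c)
    (hδ : 0 < δ) (hcc : 46080 * m * A ^ 2 * c ≤ c₁) (hmN : m ≤ N) (hδN : c ≤ δ * N)
    (r0 : 0 ≤ r) (r1 : r ≤ 1) (hw : N / 8 ≤ |w|) (hF : F ≤ 2 * (m * (A ^ 2 * N ^ 2)))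
    (hL : L ≤ m * (m * (5 * (A * N)))) :
    c * (N * r ^ 2) * (8 * 0 + 45 * F + 8 * L) + 2 / δ * (c * (N * r ^ 2)) ^ 2 +
      16 * (20 * m * c * A ^ 2 * N) ≤
    1 / 2 * (c₁ * (N * r ^ 2) * w ^ 2) + 320 * (m * c * A ^ 2) * N := by
  have hN : 0 < N := by linarith
  have hA0 : 0 < A := by linarith
  have hm0 : 0 < m := by linarith
  have w2 : N ^ 2 / 64 ≤ w ^ 2 := by
    have := pow_le_pow_left₀ (by positivity) hw 2
    rw [sq_abs] at this
    linarith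
  have hc1 : 0 ≤ c₁ := le_trans (by positivity) hcc
  have p : 0 ≤ N * r ^ 2 := by positivity
  -- the three parts
  have A1 : 1 ≤ A ^ 2 := one_le_pow₀ hA
  have A2 : A ≤ A ^ 2 := by nlinarith
  have i1 : c * (N * r ^ 2) * (45 * F) ≤ 1 / 512 * (c₁ * (N * r ^ 2) * N ^ 2) := by
    have k1 : c * (N * r ^ 2) * (45 * F) ≤ c * (N * r ^ 2) * (45 * (2 * (m * (A ^ 2 * N ^ 2)))) :=
      mul_le_mul_of_nonneg_left (by linarith) (by positivity)
    have k2 := mul_le_mul_of_nonneg_right hcc (by positivity : 0 ≤ N * r ^ 2 * N ^ 2)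
    linarith
  have i2 : c * (N * r ^ 2) * (8 * L) ≤ 1 / 512 * (c₁ * (N * r ^ 2) * N ^ 2) := by
    have k1 : c * (N * r ^ 2) * (8 * L) ≤ c * (N * r ^ 2) * (8 * (m * (m * (5 * (A * N))))) :=
      mul_le_mul_of_nonneg_left (by linarith) (by positivity)
    have k2 : m * A * N ≤ A ^ 2 * N ^ 2 := by
      have := mul_le_mul hmN A2 hA0.le hN.le
      nlinarith
    have k3 := mul_le_mul_of_nonneg_left k2 (by positivity : 0 ≤ c * (N * r ^ 2) * m)
    have k4 := mul_le_mul_of_nonneg_right hcc (by positivity : 0 ≤ N * r ^ 2 * N ^ 2)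
    have k5 : 0 ≤ c * (N * r ^ 2) * m * (A ^ 2 * N ^ 2) := by positivity
    nlinarith
  have i3 : 2 / δ * (c * (N * r ^ 2)) ^ 2 ≤ 1 / 512 * (c₁ * (N * r ^ 2) * N ^ 2) := by
    have k0 : c / δ ≤ N := by
      rw [div_le_iff₀ hδ]
      linarith
    have r2 : r ^ 2 ≤ 1 := pow_le_one₀ r0 r1
    have e : 2 / δ * (c * (N * r ^ 2)) ^ 2 = 2 * (c / δ) * (c * r ^ 2) * (N ^ 2 * r ^ 2) := by
      field_simp
    have k1 : 2 * (c / δ) * (c * r ^ 2) ≤ 2 * N * c := by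
      have a1 : c * r ^ 2 ≤ c := mul_le_of_le_one_right hc r2
      have a2 : 0 ≤ c / δ := by positivity
      have := mul_le_mul (mul_le_mul_of_nonneg_left k0 (by norm_num : (0 : ℝ) ≤ 2)) a1
        (by positivity) (by positivity)
      linarith
    have k2 := mul_le_mul_of_nonneg_right k1 (by positivity : 0 ≤ N ^ 2 * r ^ 2)
    have k3 : 46080 * c ≤ c₁ := by
      have : 46080 * 1 * 1 * c ≤ 46080 * m * A ^ 2 * c := by gcongr
      linarith
    have k4 := mul_le_mul_of_nonneg_right k3 (by positivity : 0 ≤ N * r ^ 2 * N ^ 2)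
    rw [e]
    have k5 : 0 ≤ c * (N * r ^ 2 * N ^ 2) := by positivity
    nlinarith
  have i4 : c₁ * (N * r ^ 2) * (N ^ 2 / 64) ≤ c₁ * (N * r ^ 2) * w ^ 2 :=
    mul_le_mul_of_nonneg_left w2 (by positivity)
  have i5 : 0 ≤ c₁ * (N * r ^ 2) * N ^ 2 := by positivity
  nlinarith

/-- The coefficient of the energy of one slot. -/
theorem Q_cond (el : El σ z) (hv : v z = 0) (hA : 1 ≤ A) (hm : 1 ≤ (Fintype.card ι : ℝ))
    (hc : 0 ≤ c) (hδ : 0 < δ)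
    (h : ρ z ≠ 0 → SF σ ν W N ρ A z ∧ 46080 * Fintype.card ι * A ^ 2 * c ≤ c₁ ∧
      Fintype.card ι ≤ N z ∧ c ≤ δ * N z) :
    Qz σ v W (fun z => c * (N z * ρ z ^ 2)) (rw' (Fintype.card ι) c A N ρ) δ z ≤
      1 / 2 * (c₁ * (N z * ρ z ^ 2) * Dn σ ν W z ^ 2) +
        if ρ z = 0 then 0 else 320 * (Fintype.card ι * c * A ^ 2) * N z := by
  unfold Qz rw'
  rw [hv, abs_zero]
  by_cases h0 : ρ z = 0
  · simp [h0]
  · rw [if_neg h0, if_neg h0]
    obtain ⟨hf, h1, h2, h3⟩ := h h0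
    exact Q_num hA hm hc hδ h1 h2 h3 hf.ρ0 hf.ρ2 (hf.v h0) (F_le el hf) (L_le hf)

end slot

end Vale.Agent.P088.R2.H338.C
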