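import Vale.Agent.P088.R2.H338.C.ThB

/-!
# P088, stage 3: the hypotheses of the tube norm from the facts at a point
-/

open MeasureTheory Set Filter
open scoped ContDiff Topology

noncomputable section

namespace Vale.Agent.P088.R2.H338.C

open Vale.Agent.P088.R2.H961.GW Vale.Agent.P088.R2.H960.W Vale.Agent.P088.R2.H644
open Vale.Agent.P088.R2.H551.E Vale.Agent.P088.R2.H972.E
open Vale.Agent.P088.R2.H86.Z (El)

variable {E ι : Type*} [NormedAddCommGroup E] [NormedSpace ℝ E] [Fintype ι]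

/-- The weight `c N ρ²`. -/
def nr (c : ℝ) (N ρ : E → ℝ) (z : E) : ℝ := c * (N z * ρ z ^ 2)

/-- The remainder of the directional identity. -/
def Qf (σ τ : Sl E ι) (ν : ι → E → ℝ) (c₁ : ℝ) (N ρx ρy : E → ℝ) (z : E) : ℝ :=
  8 * (c₁ * (N z * Dn σ ν ρy z ^ 2)) + 8 * (c₁ * (N z * Dn τ ν ρx z ^ 2))

/-- What the payer has at every point. -/
structure P0 (M₀ : Q8 E) (δ : ℝ) (k₀ : E → ℝ) (z : E) : Prop where
  κ : 32 * δ ≤ M₀.κ z
  ζ₁ : 0 ≤ M₀.ζ₁ z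
  ζ₂ : 0 ≤ M₀.ζ₂ z
  ζy : 0 ≤ M₀.ζy z
  w₁ : 0 ≤ M₀.w₁ z
  w₂ : 0 ≤ M₀.w₂ z
  wb : 0 ≤ M₀.wb z
  wc : 0 ≤ M₀.wc z
  k : 0 ≤ k₀ z

/-- What the payer has at a point of the tubes. -/
structure P1 (M₀ : Q8 E) (m A c₁ cT : ℝ) (k₀ N : E → ℝ) (z : E) : Prop where
  k : 2 * c₁ * N z ≤ k₀ z
  ζy : 8 * c₁ * N z ≤ M₀.ζy z
  wb : (64 * c₁ * m ^ 2 * A ^ 2 + 2560 * m * cT * A ^ 2) * N z + 2 * cT * N z ^ 2 ≤ M₀.wb z
  wc : (64 * c₁ * m ^ 2 * A ^ 2 + 2560 * m * cT * A ^ 2) * N z + 2 * cT * N z ^ 2 ≤ M₀.wc z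

variable {σ τ : Sl E ι} {U : Set E} {θ v₁ v₂ W k₀ N ρx ρy : E → ℝ} {ν : ι → E → ℝ}
  {A c₁ cT δ : ℝ} {M₀ : Q8 E} {z : E}

omit [Fintype ι] in
/-- The derivative at a zero of a nonnegative function. -/
theorem D_zero {ρ : E → ℝ} (hU : IsOpen U) (hz : z ∈ U) (h0 : ∀ z ∈ U, 0 ≤ ρ z) (h : ρ z = 0)
    (i : ι) : σ.D i ρ z = 0 := by
  have hm : IsLocalMin ρ z := by
    filter_upwards [hU.mem_nhds hz] with w hw
    rw [h]
    exact h0 w hw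
  unfold Sl.D
  rw [hm.fderiv_eq_zero]
  simp

theorem Dn_zero {ρ : E → ℝ} (hU : IsOpen U) (hz : z ∈ U) (h0 : ∀ z ∈ U, 0 ≤ ρ z) (h : ρ z = 0) :
    Dn σ ν ρ z = 0 := by
  unfold Dn
  refine Finset.sum_eq_zero fun i _ => ?_
  rw [D_zero hU hz h0 h i, mul_zero]

/-- The hypotheses of the tube norm. -/
theorem th_of (ok : σ.Ok U θ) (ot : τ.Ok U θ) (hz : z ∈ U) (hW : Sm U W)
    (hν : ∀ i, Sm U (ν i)) (hN : Sm U N) (hx : Sm U ρx) (hy : Sm U ρy)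
    (px : ∀ z ∈ U, 0 ≤ ρx z) (py : ∀ z ∈ U, 0 ≤ ρy z)
    (qx : ∀ z ∈ U, ρx z ≤ 1) (qy : ∀ z ∈ U, ρy z ≤ 1) (hN0 : 0 ≤ N z)
    (el₁ : El σ z) (el₂ : El τ z) (hv₁ : v₁ z = 0) (hv₂ : v₂ z = 0)
    (hA : 1 ≤ A) (hm : 1 ≤ (Fintype.card ι : ℝ)) (hc1 : 0 ≤ c₁) (hcT : 0 ≤ cT) (hδ : 0 < δ)
    (hcc : 46080 * Fintype.card ι * A ^ 2 * (4 * cT) ≤ c₁)
    (h0 : P0 M₀ δ k₀ z)
    (H : ρx z ≠ 0 ∨ ρy z ≠ 0 → SF σ ν W N ρy A z ∧ SF τ ν W N ρx A z ∧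
      P1 M₀ (Fintype.card ι) A c₁ cT k₀ N z ∧ 1536 * (Fintype.card ι : ℝ) ^ 2 * A ≤ N z ∧
      4 * cT ≤ δ * N z) :
    TH σ τ v₁ v₂ W ν k₀ (nr c₁ N ρy) (nr c₁ N ρx) (nr (4 * cT) N ρy) (nr (4 * cT) N ρx)
      (rw' (Fintype.card ι) (4 * cT) A N ρy) (rw' (Fintype.card ι) (4 * cT) A N ρx)
      (Qf σ τ ν c₁ N ρx ρy) N ρx ρy δ cT M₀ z := by
  have hU := ok.op
  set m : ℝ := (Fintype.card ι : ℝ) with hmd
  have m2 : m ≤ m ^ 2 := by nlinarith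
  have A0 : 0 < A := by linarith
  have hmN : 1536 * m ^ 2 * A ≤ N z → m ≤ N z := fun h => by
    have : 1 * m * 1 ≤ 1536 * m ^ 2 * A := by gcongr; norm_num
    linarith
  have ρx2 : ρx z ^ 2 ≤ 1 := pow_le_one₀ (px z hz) (qx z hz)
  have ρy2 : ρy z ^ 2 ≤ 1 := pow_le_one₀ (py z hz) (qy z hz)
  have c4 : 0 ≤ 4 * cT := by linarith
  have hcc' : 184320 * cT ≤ c₁ := by
    have : 46080 * 1 * 1 ^ 2 * (4 * cT) ≤ 46080 * m * A ^ 2 * (4 * cT) := by gcongr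
    linarith
  have A2 : 1 ≤ A ^ 2 := one_le_pow₀ hA
  -- the letters against `(x ± y)²`
  have hxy : ∀ B : ℝ, (ρx z ≠ 0 ∨ ρy z ≠ 0 → 0 ≤ B ∧ 2 * B ≤ M₀.wb z ∧ 2 * B ≤ M₀.wc z) →
      (¬(ρx z ≠ 0 ∨ ρy z ≠ 0) → B = 0) → ∀ x y : ℝ, B * (x ^ 2 + y ^ 2) ≤
      1 / 4 * (M₀.w₁ z * x ^ 2 + M₀.w₂ z * y ^ 2 + M₀.wb z * (x + y) ^ 2 +
        M₀.wc z * (x - y) ^ 2) := by
    intro B h1 h2 x y
    have e1 := mul_nonneg h0.w₁ (sq_nonneg x)
    have e2 := mul_nonneg h0.w₂ (sq_nonneg y)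
    have e3 := mul_nonneg h0.wb (sq_nonneg (x + y))
    have e4 := mul_nonneg h0.wc (sq_nonneg (x - y))
    by_cases hh : ρx z ≠ 0 ∨ ρy z ≠ 0
    · obtain ⟨-, b1, b2⟩ := h1 hh
      have k1 := mul_le_mul_of_nonneg_right b1 (sq_nonneg (x + y))
      have k2 := mul_le_mul_of_nonneg_right b2 (sq_nonneg (x - y))
      linarith
    · rw [h2 hh]
      linarith
  have F0 : ∀ {ρ : Sl E ι}, El ρ z → 0 ≤ ρ.F W z := fun {ρ} el => by
    have h1 : ∑ i, ρ.D i W z ^ 2 ≤ 2 * ρ.F W z := el.lo fun i => ρ.D i W z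
    have h2 : 0 ≤ ∑ i, ρ.D i W z ^ 2 := Finset.sum_nonneg fun _ _ => sq_nonneg _
    linarith
  have D1 := d_cond (c := c₁) ok hz hν hW hN hy hc1 hA hm hN0 fun h =>
    ⟨(H (Or.inr h)).1, (H (Or.inr h)).2.2.2.1⟩
  have D2 := d_cond (c := c₁) ot hz hν hW hN hx hc1 hA hm hN0 fun h =>
    ⟨(H (Or.inl h)).2.1, (H (Or.inl h)).2.2.2.1⟩
  have Q1 := Q_cond (c := 4 * cT) (c₁ := c₁) el₁ hv₁ hA hm c4 hδ fun (h : ρy z ≠ 0) =>
    ⟨(H (Or.inr h)).1, hcc, hmN (H (Or.inr h)).2.2.2.1, (H (Or.inr h)).2.2.2.2⟩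
  have Q2 := Q_cond (c := 4 * cT) (c₁ := c₁) el₂ hv₂ hA hm c4 hδ fun (h : ρx z ≠ 0) =>
    ⟨(H (Or.inl h)).2.1, hcc, hmN (H (Or.inl h)).2.2.2.1, (H (Or.inl h)).2.2.2.2⟩
  have hw : ∀ {ρ : Sl E ι} {f : E → ℝ}, 0 ≤ f z → (f z ≠ 0 → N z / 8 ≤ |Dn ρ ν W z|) →
      N z ^ 3 * f z ^ 2 ≤ 64 * (N z * f z ^ 2 * Dn ρ ν W z ^ 2) := fun {ρ f} _ hh => by
    by_cases hf : f z = 0
    · rw [hf]
      simp
    · have h1 := pow_le_pow_left₀ (by positivity) (hh hf) 2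
      rw [sq_abs] at h1
      have h2 := mul_le_mul_of_nonneg_left h1 (by positivity : 0 ≤ N z * f z ^ 2)
      nlinarith
  have n3 : 0 ≤ N z * ρx z ^ 2 := by positivity
  have n4 : 0 ≤ N z * ρy z ^ 2 := by positivity
  have n5 : N z * ρx z ^ 2 ≤ N z := mul_le_of_le_one_right hN0 ρx2
  have n6 : N z * ρy z ^ 2 ≤ N z := mul_le_of_le_one_right hN0 ρy2
  have off : ¬(ρx z ≠ 0 ∨ ρy z ≠ 0) → ρx z = 0 ∧ ρy z = 0 := fun h => by
    push Not at h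
    exact h
  refine ⟨?_, ?_, ?_, ?_, ?_, ?_, ?_, h0.ζ₁, h0.ζ₂, ?_, ?_, ?_, ?_, F0 el₁, F0 el₂, ?_, ?_, ?_,
    ?_, ?_, ?_⟩
  · intro h
    by_cases hh : ρx z ≠ 0 ∨ ρy z ≠ 0
    · exact (H hh).1.ν0
    · exfalso
      obtain ⟨e1, e2⟩ := off hh
      apply h
      unfold nr
      rw [e1, e2]
      ring
  · unfold nr
    by_cases hh : ρx z ≠ 0 ∨ ρy z ≠ 0
    · have h1 := (H hh).2.2.1.k
      have k1 := mul_le_mul_of_nonneg_left n5 hc1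
      have k2 := mul_le_mul_of_nonneg_left n6 hc1
      linarith
    · obtain ⟨e1, e2⟩ := off hh
      rw [e1, e2]
      have := h0.k
      linarith
  · unfold nr
    by_cases hh : ρx z ≠ 0 ∨ ρy z ≠ 0
    · have h1 := (H hh).2.2.1.ζy
      have k1 := mul_le_mul_of_nonneg_left n5 hc1
      have k2 := mul_le_mul_of_nonneg_left n6 hc1
      linarith
    · obtain ⟨e1, e2⟩ := off hh
      rw [e1, e2]
      have := h0.ζy
      linarith
  · refine le_trans D1 ?_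
    have : 0 ≤ 8 * (c₁ * (N z * Dn τ ν ρx z ^ 2)) := by positivity
    unfold Qf nr
    linarith
  · refine le_trans D2 ?_
    have : 0 ≤ 8 * (c₁ * (N z * Dn σ ν ρy z ^ 2)) := by positivity
    unfold Qf nr
    linarith
  · linarith [h0.κ]
  · linarith [h0.κ]
  · refine hxy (2 * Qf σ τ ν c₁ N ρx ρy z) (fun hh => ?_) fun hh => ?_
    · obtain ⟨s1, s2, p1, -, -⟩ := H hh
      have a1 : |Dn σ ν ρy z| ≤ m * A := Dn_le s1.ν0 s1.ρ1
      have a2 : |Dn τ ν ρx z| ≤ m * A := Dn_le s2.ν0 s2.ρ1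
      have b1 := pow_le_pow_left₀ (abs_nonneg _) a1 2
      have b2 := pow_le_pow_left₀ (abs_nonneg _) a2 2
      rw [sq_abs] at b1 b2
      have c1 := mul_le_mul_of_nonneg_left b1 (mul_nonneg hc1 hN0)
      have c2 := mul_le_mul_of_nonneg_left b2 (mul_nonneg hc1 hN0)
      have q0 : 0 ≤ Qf σ τ ν c₁ N ρx ρy z := by
        unfold Qf
        positivity
      have q1 : 4 * Qf σ τ ν c₁ N ρx ρy z ≤ 64 * c₁ * m ^ 2 * A ^ 2 * N z := by
        unfold Qf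
        linarith
      have q2 : 0 ≤ 2560 * m * cT * A ^ 2 * N z + 2 * cT * N z ^ 2 := by positivity
      exact ⟨by linarith, by linarith [p1.wb], by linarith [p1.wc]⟩
    · obtain ⟨e1, e2⟩ := off hh
      unfold Qf
      rw [Dn_zero hU hz py e2, Dn_zero hU hz px e1]
      ring
  · intro x y
    have k := hxy (if ρx z ≠ 0 ∨ ρy z ≠ 0 then 1280 * m * cT * A ^ 2 * N z else 0)
      (fun hh => by
        rw [if_pos hh]
        obtain ⟨s1, s2, p1, -, -⟩ := H hh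
        have q0 : 0 ≤ 1280 * m * cT * A ^ 2 * N z := by positivity
        have q2 : 0 ≤ 64 * c₁ * m ^ 2 * A ^ 2 * N z + 2 * cT * N z ^ 2 := by positivity
        exact ⟨q0, by linarith [p1.wb], by linarith [p1.wc]⟩)
      (fun hh => if_neg hh) x y
    have t1 : (if ρy z = 0 then 0 else 320 * (m * (4 * cT) * A ^ 2) * N z) ≤
        if ρx z ≠ 0 ∨ ρy z ≠ 0 then 1280 * m * cT * A ^ 2 * N z else 0 := by
      have q0 : 0 ≤ 1280 * m * cT * A ^ 2 * N z := by positivity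
      by_cases h1 : ρy z = 0
      · rw [if_pos h1]
        split_ifs
        · exact q0
        · exact le_rfl
      · rw [if_neg h1, if_pos (Or.inr h1)]
        exact le_of_eq (by ring)
    have t2 : (if ρx z = 0 then 0 else 320 * (m * (4 * cT) * A ^ 2) * N z) ≤
        if ρx z ≠ 0 ∨ ρy z ≠ 0 then 1280 * m * cT * A ^ 2 * N z else 0 := by
      have q0 : 0 ≤ 1280 * m * cT * A ^ 2 * N z := by positivity
      by_cases h1 : ρx z = 0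
      · rw [if_pos h1]
        split_ifs
        · exact q0
        · exact le_rfl
      · rw [if_neg h1, if_pos (Or.inl h1)]
        exact le_of_eq (by ring)
    have g1 := mul_le_mul_of_nonneg_right (Q1.trans (add_le_add le_rfl t1)) (sq_nonneg x)
    have g2 := mul_le_mul_of_nonneg_right (Q2.trans (add_le_add le_rfl t2)) (sq_nonneg y)
    unfold nr
    unfold nr at *
    linarith
  · exact r_cond ok hz hN hy el₁ c4 hN0 fun h => (H (Or.inr h)).1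
  · exact r_cond ot hz hN hx el₂ c4 hN0 fun h => (H (Or.inl h)).2.1
  · unfold nr
    by_cases hh : ρx z ≠ 0 ∨ ρy z ≠ 0
    · have h1 := (H hh).2.2.1.ζy
      have k1 := mul_le_mul_of_nonneg_left n5 c4
      have k2 := mul_le_mul_of_nonneg_left n6 c4
      have k3 := mul_le_mul_of_nonneg_right hcc' hN0
      have k4 := mul_nonneg hcT hN0
      linarith
    · obtain ⟨e1, e2⟩ := off hh
      rw [e1, e2]
      have := h0.ζy
      linarith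
  · unfold nr
    exact le_of_eq (by ring)
  · unfold nr
    exact le_of_eq (by ring)
  · have h1 := hw (ρ := σ) (py z hz) fun h => (H (Or.inr h)).1.v h
    have h2 := mul_le_mul_of_nonneg_left h1 hcT
    have h3 := mul_le_mul_of_nonneg_right hcc'
      (by positivity : 0 ≤ N z * ρy z ^ 2 * Dn σ ν W z ^ 2)
    have h4 : 0 ≤ cT * (N z * ρy z ^ 2 * Dn σ ν W z ^ 2) := by positivity
    unfold nr
    linarith
  · have h1 := hw (ρ := τ) (px z hz) fun h => (H (Or.inl h)).2.1.v h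
    have h2 := mul_le_mul_of_nonneg_left h1 hcT
    have h3 := mul_le_mul_of_nonneg_right hcc'
      (by positivity : 0 ≤ N z * ρx z ^ 2 * Dn τ ν W z ^ 2)
    have h4 : 0 ≤ cT * (N z * ρx z ^ 2 * Dn τ ν W z ^ 2) := by positivity
    unfold nr
    linarith
  · intro x y
    have k := hxy (if ρx z ≠ 0 ∨ ρy z ≠ 0 then cT * N z ^ 2 else 0)
      (fun hh => by
        rw [if_pos hh]
        obtain ⟨s1, s2, p1, -, -⟩ := H hh
        have q0 : 0 ≤ cT * N z ^ 2 := by positivity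
        have q2 : 0 ≤ (64 * c₁ * m ^ 2 * A ^ 2 + 2560 * m * cT * A ^ 2) * N z := by positivity
        exact ⟨q0, by linarith [p1.wb], by linarith [p1.wc]⟩)
      (fun hh => if_neg hh) x y
    refine le_trans ?_ k
    by_cases hh : ρx z ≠ 0 ∨ ρy z ≠ 0
    · rw [if_pos hh]
      have q0 : 0 ≤ cT * N z ^ 2 := by positivity
      have k1 := mul_le_mul_of_nonneg_left ρx2 (mul_nonneg q0 (sq_nonneg x))
      have k2 := mul_le_mul_of_nonneg_left ρy2 (mul_nonneg q0 (sq_nonneg y))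
      linarith
    · obtain ⟨e1, e2⟩ := off hh
      rw [if_neg hh, e1, e2]
      exact le_of_eq (by ring)

end Vale.Agent.P088.R2.H338.C
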