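import Vale.Agent.P088.R2.H338.C.Unit2

/-!
# P088, stage 3: the tube norm from the margins of region I

Near `X W = 0` (function `ρx`) the energy identity in the direction `ν` of the second slot gives
`K (ν·D'W)² b²`, the energy estimate of the second slot gives `N |X' b|²`, and
`|X a|² ≤ 2 |X a - X' b|² + 2 |X' b|²`; the mirror image near `X' W = 0` (function `ρy`).
-/

open MeasureTheory Set Filter
open scoped ContDiff Topology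

noncomputable section

namespace Vale.Agent.P088.R2.H338.C

open Vale.Agent.P088.R2.H961.GW Vale.Agent.P088.R2.H960.W Vale.Agent.P088.R2.H644
open Vale.Agent.P088.R2.H551.E Vale.Agent.P088.R2.H972.E
open Vale.Agent.P088.R2.H86.Z (El)

variable {E ι : Type*} [NormedAddCommGroup E] [NormedSpace ℝ E] [Fintype ι]

/-- The tube letters. -/
def TL (cT : ℝ) (N ρx ρy : E → ℝ) : Q8 E where
  κ _ := 0
  ζ₁ z := cT * (N z * (ρx z ^ 2 + ρy z ^ 2))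
  ζ₂ z := cT * (N z * (ρx z ^ 2 + ρy z ^ 2))
  ζy _ := 0
  w₁ z := cT * (N z ^ 2 * ρx z ^ 2 + N z ^ 3 * ρy z ^ 2)
  w₂ z := cT * (N z ^ 3 * ρx z ^ 2 + N z ^ 2 * ρy z ^ 2)
  wb _ := 0
  wc _ := 0

/-- A quarter of the letters. -/
def qt (M : Q8 E) : Q8 E := M.sm fun _ => 1 / 4

/-- Cost of the direction: `2 · 8 n (D_ν χ)²`. -/
def cdn (σ τ : Sl E ι) (ν : ι → E → ℝ) (χ n₁ n₂ : E → ℝ) : Q8 E :=
  tc (fun z => 8 * (n₁ z * Dn σ ν χ z ^ 2)) fun z => 8 * (n₂ z * Dn τ ν χ z ^ 2)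

/-- The pointwise hypotheses (where `χ ≠ 0`). -/
structure TH (σ τ : Sl E ι) (v₁ v₂ W : E → ℝ) (ν : ι → E → ℝ) (k₀ n₁ n₂ s₁ s₂ r₁ r₂ Q N ρx ρy : E → ℝ)
    (δ cT : ℝ) (M₀ : Q8 E) (z : E) : Prop where
  hn : n₁ z + n₂ z ≠ 0 → ∑ i, ν i z ^ 2 ≤ 1
  hk : n₁ z + n₂ z ≤ k₀ z
  hy : n₁ z + n₂ z ≤ M₀.ζy z / 4
  d₁ : |Dn σ ν n₁ z * Dn σ ν W z + n₁ z * Dn σ ν (Dn σ ν W) z + n₁ z * Dn σ ν W z * dvn σ ν z| ≤
    3 / 8 * (n₁ z * Dn σ ν W z ^ 2) + Q z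
  d₂ : |Dn τ ν n₂ z * Dn τ ν W z + n₂ z * Dn τ ν (Dn τ ν W) z + n₂ z * Dn τ ν W z * dvn τ ν z| ≤
    3 / 8 * (n₂ z * Dn τ ν W z ^ 2) + Q z
  κ0 : 0 ≤ M₀.κ z
  κδ : 8 * δ ≤ M₀.κ z / 4
  ζ₁ : 0 ≤ M₀.ζ₁ z
  ζ₂ : 0 ≤ M₀.ζ₂ z
  q : ∀ x y : ℝ, 2 * Q z * (x ^ 2 + y ^ 2) ≤
    1 / 4 * (M₀.w₁ z * x ^ 2 + M₀.w₂ z * y ^ 2 + M₀.wb z * (x + y) ^ 2 + M₀.wc z * (x - y) ^ 2)
  w : ∀ x y : ℝ, Qz σ v₁ W s₁ r₁ δ z * x ^ 2 + Qz τ v₂ W s₂ r₂ δ z * y ^ 2 ≤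
    1 / 2 * (n₁ z * Dn σ ν W z ^ 2) * x ^ 2 + 1 / 2 * (n₂ z * Dn τ ν W z ^ 2) * y ^ 2 +
    1 / 4 * (M₀.w₁ z * x ^ 2 + M₀.w₂ z * y ^ 2 + M₀.wb z * (x + y) ^ 2 + M₀.wc z * (x - y) ^ 2)
  r₁ : 0 ≤ r₁ z ∧ σ.Γ s₁ s₁ z ≤ s₁ z * r₁ z
  r₂ : 0 ≤ r₂ z ∧ τ.Γ s₂ s₂ z ≤ s₂ z * r₂ z
  F₁ : 0 ≤ σ.F W z
  F₂ : 0 ≤ τ.F W z
  sy : 2 * (s₁ z + s₂ z) ≤ M₀.ζy z
  t₁ : 4 * (cT * (N z * ρy z ^ 2)) ≤ s₁ z
  t₂ : 4 * (cT * (N z * ρx z ^ 2)) ≤ s₂ z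
  u₁ : cT * (N z ^ 3 * ρy z ^ 2) ≤ 1 / 2 * (n₁ z * Dn σ ν W z ^ 2)
  u₂ : cT * (N z ^ 3 * ρx z ^ 2) ≤ 1 / 2 * (n₂ z * Dn τ ν W z ^ 2)
  u : ∀ x y : ℝ, cT * (N z ^ 2 * ρx z ^ 2) * x ^ 2 + cT * (N z ^ 2 * ρy z ^ 2) * y ^ 2 ≤
    1 / 4 * (M₀.w₁ z * x ^ 2 + M₀.w₂ z * y ^ 2 + M₀.wb z * (x + y) ^ 2 + M₀.wc z * (x - y) ^ 2)

/-- The middle letters (before the energy conversion): the part `N` of `unit2`. -/
def Nm (σ τ : Sl E ι) (ν : ι → E → ℝ) (W n₁ n₂ : E → ℝ) (M₀ : Q8 E) : Q8 E :=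
  qt M₀ + ⟨fun _ => 0, fun _ => 0, fun _ => 0, fun _ => 0,
    fun z => 1 / 2 * (n₁ z * Dn σ ν W z ^ 2), fun z => 1 / 2 * (n₂ z * Dn τ ν W z ^ 2),
    fun _ => 0, fun _ => 0⟩

/-- The part `M` of `unit2`. -/
def Mm (σ τ : Sl E ι) (ν : ι → E → ℝ) (W n₁ n₂ : E → ℝ) (M₀ : Q8 E) : Q8 E :=
  (qt M₀ + qt M₀) + ⟨fun _ => 0, fun _ => 0, fun _ => 0, fun _ => 0,
    fun z => 1 / 2 * (n₁ z * Dn σ ν W z ^ 2), fun z => 1 / 2 * (n₂ z * Dn τ ν W z ^ 2),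
    fun _ => 0, fun _ => 0⟩

section ct

variable {σ τ : Sl E ι} {U : Set E} {θ W n₁ n₂ N ρx ρy : E → ℝ} {ν : ι → E → ℝ} {M₀ : Q8 E}

omit [NormedSpace ℝ E] in
theorem qt_ct (h : M₀.Ct U) : (qt M₀).Ct U := H338.E.ct_sm continuousOn_const h

theorem half_ct (ok : σ.Ok U θ) (ot : τ.Ok U θ) (hν : ∀ i, Sm U (ν i)) (hW : Sm U W)
    (h1 : Sm U n₁) (h2 : Sm U n₂) : (⟨fun _ => 0, fun _ => 0, fun _ => 0, fun _ => 0,
    fun z => 1 / 2 * (n₁ z * Dn σ ν W z ^ 2), fun z => 1 / 2 * (n₂ z * Dn τ ν W z ^ 2),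
    fun _ => 0, fun _ => 0⟩ : Q8 E).Ct U :=
  ⟨continuousOn_const, continuousOn_const, continuousOn_const, continuousOn_const,
    continuousOn_const.mul (h1.mul ((sDn ok hν hW).pow 2)).continuousOn,
    continuousOn_const.mul (h2.mul ((sDn ot hν hW).pow 2)).continuousOn,
    continuousOn_const, continuousOn_const⟩

omit [NormedSpace ℝ E] in
theorem TL_ct {cT : ℝ} (hN : ContinuousOn N U) (hx : ContinuousOn ρx U)
    (hy : ContinuousOn ρy U) : (TL cT N ρx ρy).Ct U := by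
  refine ⟨continuousOn_const, ?_, ?_, continuousOn_const, ?_, ?_, continuousOn_const,
    continuousOn_const⟩
  · exact continuousOn_const.mul (hN.mul ((hx.pow 2).add (hy.pow 2)))
  · exact continuousOn_const.mul (hN.mul ((hx.pow 2).add (hy.pow 2)))
  · exact continuousOn_const.mul (((hN.pow 2).mul (hx.pow 2)).add ((hN.pow 3).mul (hy.pow 2)))
  · exact continuousOn_const.mul (((hN.pow 3).mul (hx.pow 2)).add ((hN.pow 2).mul (hy.pow 2)))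

end ct

variable [MeasureSpace E] [FiniteDimensional ℝ E] [BorelSpace E]
  [(volume : Measure E).IsAddHaarMeasure]

/-- **The tube norm in region I.** -/
theorem tube_zone {σ τ : Sl E ι} {U : Set E} {θ v₁ v₂ W χ k₀ n₁ n₂ s₁ s₂ r₁ r₂ Q N ρx ρy : E → ℝ}
    {ν : ι → E → ℝ} {δ cT : ℝ} (ok : σ.Ok U θ) (ot : τ.Ok U θ) (hv₁ : Sm U v₁) (hv₂ : Sm U v₂)
    (el₁ : ∀ z ∈ U, El σ z) (el₂ : ∀ z ∈ U, El τ z) (hW : Sm U W) (hχ : Sm U χ)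
    (hν : ∀ i, Sm U (ν i)) (hk : ContinuousOn k₀ U) (h1 : Sm U n₁) (h2 : Sm U n₂)
    (hs₁ : Sm U s₁) (hs₂ : Sm U s₂) (hQ : ContinuousOn Q U) (hN : ContinuousOn N U)
    (hx : ContinuousOn ρx U) (hy : ContinuousOn ρy U)
    (p1 : ∀ z ∈ U, 0 ≤ n₁ z) (p2 : ∀ z ∈ U, 0 ≤ n₂ z) (p3 : ∀ z ∈ U, 0 ≤ s₁ z)
    (p4 : ∀ z ∈ U, 0 ≤ s₂ z) (hδ : 0 < δ) {M₀ co : Q8 E} (cM : M₀.Ct U) (cc : co.Ct U)
    (H : ∀ z ∈ U, χ z ≠ 0 → TH σ τ v₁ v₂ W ν k₀ n₁ n₂ s₁ s₂ r₁ r₂ Q N ρx ρy δ cT M₀ z)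
    (I0 : ∀ a b : E → ℝ, Te U a → Te U b →
      In U θ ((M₀.sm fun z => χ z ^ 2).dens σ τ v₁ v₂ W a b) +
      In U θ (fun z => χ z ^ 2 * k₀ z * (Xn σ ν W a z + Xn τ ν W b z) ^ 2) -
      In U θ (co.dens σ τ v₁ v₂ W a b) ≤ In U θ fun z => χ z ^ 2 * dn σ τ v₁ v₂ W a b z) :
    Zone σ τ U θ v₁ v₂ W χ ((qt M₀ + TL cT N ρx ρy).sm fun z => χ z ^ 2)
      (co + cdn σ τ ν χ n₁ n₂ + cu2 σ τ s₁ s₂ χ) := by
  have hU := ok.op
  have hχc : ContinuousOn (fun z => χ z ^ 2) U := hχ.continuousOn.pow 2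
  have m1 : Sm U fun z => χ z ^ 2 * n₁ z := (hχ.pow 2).mul h1
  have m2 : Sm U fun z => χ z ^ 2 * n₂ z := (hχ.pow 2).mul h2
  have g1 := sDn ok hν hW
  have g2 := sDn ot hν hW
  have x1 := sDn ok hν hχ
  have x2 := sDn ot hν hχ
  -- derivative of `χ² n`
  have dm : ∀ (ρ : Sl E ι) (n : E → ℝ), Sm U n → ∀ z ∈ U,
      Dn ρ ν (fun z => χ z ^ 2 * n z) z = 2 * χ z * Dn ρ ν χ z * n z + χ z ^ 2 * Dn ρ ν n z := by
    intro ρ n hn z hz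
    unfold Dn
    rw [Finset.mul_sum, Finset.sum_mul, Finset.mul_sum, ← Finset.sum_add_distrib]
    refine Finset.sum_congr rfl fun i _ => ?_
    have e1 : ρ.D i (fun z => χ z ^ 2 * n z) z =
        ρ.D i (fun z => χ z ^ 2) z * n z + χ z ^ 2 * ρ.D i n z :=
      D_mul ρ hU (hχ.pow 2) hn i hz
    have e2 : ρ.D i (fun z => χ z ^ 2) z = 2 * χ z * ρ.D i χ z := D_sq ρ hU hχ i hz
    rw [e1, e2]
    ring
  -- the general estimate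
  have est : ∀ (ρ : Sl E ι) (n : E → ℝ), Sm U n → ∀ z ∈ U, 0 ≤ n z →
      (χ z ≠ 0 → |Dn ρ ν n z * Dn ρ ν W z + n z * Dn ρ ν (Dn ρ ν W) z +
        n z * Dn ρ ν W z * dvn ρ ν z| ≤ 3 / 8 * (n z * Dn ρ ν W z ^ 2) + Q z) →
      |Dn ρ ν (fun z => χ z ^ 2 * n z) z * Dn ρ ν W z + χ z ^ 2 * n z * Dn ρ ν (Dn ρ ν W) z +
        χ z ^ 2 * n z * Dn ρ ν W z * dvn ρ ν z| ≤ χ z ^ 2 * n z * Dn ρ ν W z ^ 2 / 2 +
        (8 * (n z * Dn ρ ν χ z ^ 2) + χ z ^ 2 * Q z) := by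
    intro ρ n hn z hz hn0 h
    rw [dm ρ n hn z hz]
    by_cases h0 : χ z = 0
    · rw [h0]
      have : 0 ≤ 8 * (n z * Dn ρ ν χ z ^ 2) := by positivity
      simp only [mul_zero, zero_mul, ne_eq, OfNat.ofNat_ne_zero, not_false_eq_true, zero_pow,
        add_zero, abs_zero, zero_div, zero_add]
      exact this
    · have k := h h0
      have e : (2 * χ z * Dn ρ ν χ z * n z + χ z ^ 2 * Dn ρ ν n z) * Dn ρ ν W z +
          χ z ^ 2 * n z * Dn ρ ν (Dn ρ ν W) z + χ z ^ 2 * n z * Dn ρ ν W z * dvn ρ ν z =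
          2 * (χ z * Dn ρ ν χ z * n z * Dn ρ ν W z) + χ z ^ 2 * (Dn ρ ν n z * Dn ρ ν W z +
          n z * Dn ρ ν (Dn ρ ν W) z + n z * Dn ρ ν W z * dvn ρ ν z) := by ring
      rw [e]
      refine (abs_add_le _ _).trans ?_
      have k1 : |χ z ^ 2 * (Dn ρ ν n z * Dn ρ ν W z + n z * Dn ρ ν (Dn ρ ν W) z +
          n z * Dn ρ ν W z * dvn ρ ν z)| ≤
          χ z ^ 2 * (3 / 8 * (n z * Dn ρ ν W z ^ 2) + Q z) := by
        rw [abs_mul, abs_of_nonneg (sq_nonneg (χ z))]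
        exact mul_le_mul_of_nonneg_left k (sq_nonneg _)
      have k2 : |2 * (χ z * Dn ρ ν χ z * n z * Dn ρ ν W z)| ≤
          1 / 8 * (χ z ^ 2 * n z * Dn ρ ν W z ^ 2) + 8 * (n z * Dn ρ ν χ z ^ 2) := by
        rw [abs_le]
        have j1 : 0 ≤ n z * (χ z * Dn ρ ν W z + 8 * Dn ρ ν χ z) ^ 2 := by positivity
        have j2 : 0 ≤ n z * (χ z * Dn ρ ν W z - 8 * Dn ρ ν χ z) ^ 2 := by positivity
        constructor <;> nlinarith [j1, j2]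
      linarith
  have c8 : ∀ (ρ : Sl E ι) (n : E → ℝ), ContinuousOn n U → ContinuousOn (Dn ρ ν χ) U →
      ContinuousOn (fun z => 8 * (n z * Dn ρ ν χ z ^ 2) + χ z ^ 2 * Q z) U := fun ρ n a b =>
    (continuousOn_const.mul (a.mul (b.pow 2))).add (hχc.mul hQ)
  have c8' : ∀ (ρ : Sl E ι) (n : E → ℝ), ContinuousOn n U → ContinuousOn (Dn ρ ν χ) U →
      ContinuousOn (fun z => 8 * (n z * Dn ρ ν χ z ^ 2)) U := fun ρ n a b =>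
    continuousOn_const.mul (a.mul (b.pow 2))
  have cd : (cdn σ τ ν χ n₁ n₂).Ct U := tc_ct (c8' σ n₁ h1.continuousOn x1.continuousOn)
    (c8' τ n₂ h2.continuousOn x2.continuousOn)
  -- first step: the direction
  have Z1 := conv (χ := χ) (kk := fun z => χ z ^ 2 * k₀ z) (m₁ := fun z => χ z ^ 2 * n₁ z)
    (m₂ := fun z => χ z ^ 2 * n₂ z)
    (e₁ := fun z => 8 * (n₁ z * Dn σ ν χ z ^ 2) + χ z ^ 2 * Q z)
    (e₂ := fun z => 8 * (n₂ z * Dn τ ν χ z ^ 2) + χ z ^ 2 * Q z)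
    (mg := M₀.sm fun z => χ z ^ 2) (co := co) ok ot hv₁ hv₂ hW hν (hχc.mul hk) m1 m2
    (c8 σ n₁ h1.continuousOn x1.continuousOn) (c8 τ n₂ h2.continuousOn x2.continuousOn)
    (H338.E.ct_sm hχc cM) cc (fun z hz => mul_nonneg (sq_nonneg _) (p1 z hz))
    (fun z hz => mul_nonneg (sq_nonneg _) (p2 z hz))
    (fun z hz => by
      by_cases h0 : χ z = 0
      · rw [h0]; simp
      · have := mul_le_mul_of_nonneg_left (H z hz h0).hk (sq_nonneg (χ z))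
        linarith)
    (fun z hz h => by
      by_cases h0 : χ z = 0
      · exfalso
        apply h
        rw [h0]
        ring
      · refine (H z hz h0).hn fun hh => h ?_
        rw [← mul_add, hh, mul_zero])
    (fun z hz => est σ n₁ h1 z hz (p1 z hz) fun h0 => (H z hz h0).d₁)
    (fun z hz => est τ n₂ h2 z hz (p2 z hz) fun h0 => (H z hz h0).d₂) I0
  -- second step: letters
  have hh := half_ct (n₁ := n₁) (n₂ := n₂) ok ot hν hW h1 h2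
  have cMm : (Mm σ τ ν W n₁ n₂ M₀).Ct U := ct_add (ct_add (qt_ct cM) (qt_ct cM)) hh
  have cNm : (Nm σ τ ν W n₁ n₂ M₀).Ct U := ct_add (qt_ct cM) hh
  have Z2 : Zone σ τ U θ v₁ v₂ W χ
      ((Mm σ τ ν W n₁ n₂ M₀ + Nm σ τ ν W n₁ n₂ M₀).sm fun z => χ z ^ 2)
      (co + cdn σ τ ν χ n₁ n₂) := by
    refine zone_mono ok ot hv₁ hv₂ hW Z1
      (ct_add (H338.E.ct_sm hχc cM) (tw_ct ok ot hν hW m1 m2))
      (ct_add cc (tc_ct (c8 σ n₁ h1.continuousOn x1.continuousOn)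
        (c8 τ n₂ h2.continuousOn x2.continuousOn))) (H338.E.ct_sm hχc (ct_add cMm cNm))
      (ct_add cc cd) fun z hz a b => ?_
    simp only [Q8.dens_add, Q8.dens_sm, Mm, Nm, qt, cdn]
    have d1 : (tw σ τ ν W (fun z => χ z ^ 2 * n₁ z) fun z => χ z ^ 2 * n₂ z).dens
        σ τ v₁ v₂ W a b z = χ z ^ 2 * (-(n₁ z + n₂ z) * nY σ τ W a b z +
          n₁ z * Dn σ ν W z ^ 2 * a z ^ 2 + n₂ z * Dn τ ν W z ^ 2 * b z ^ 2) := by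
      unfold Q8.dens tw
      ring
    have d2 : ∀ e₁ e₂ : E → ℝ, (tc e₁ e₂).dens σ τ v₁ v₂ W a b z =
        2 * e₁ z * a z ^ 2 + 2 * e₂ z * b z ^ 2 := by
      intro e₁ e₂
      unfold Q8.dens tc
      ring
    have d3 : (⟨fun _ => 0, fun _ => 0, fun _ => 0, fun _ => 0,
        fun z => 1 / 2 * (n₁ z * Dn σ ν W z ^ 2), fun z => 1 / 2 * (n₂ z * Dn τ ν W z ^ 2),
        fun _ => 0, fun _ => 0⟩ : Q8 E).dens σ τ v₁ v₂ W a b z =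
        1 / 2 * (n₁ z * Dn σ ν W z ^ 2) * a z ^ 2 + 1 / 2 * (n₂ z * Dn τ ν W z ^ 2) * b z ^ 2 := by
      unfold Q8.dens
      ring
    rw [d1, d2, d2, d3]
    by_cases h0 : χ z = 0
    · simp only [h0, ne_eq, OfNat.ofNat_ne_zero, not_false_eq_true, zero_pow, zero_mul, zero_add,
        add_zero]
      exact le_rfl
    · have T := H z hz h0
      have ny := Q8.nY_nonneg σ τ W a b z
      have q1 := mul_le_mul_of_nonneg_right T.hy ny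
      have q2 := T.q (a z) (b z)
      have k0 := mul_nonneg T.κ0 (sqd_nonneg σ τ v₁ v₂ W a b z)
      have k1 := mul_nonneg T.ζ₁ (Q8.nX_nonneg σ W a z)
      have k2 := mul_nonneg T.ζ₂ (Q8.nX_nonneg τ W b z)
      have key : (1 / 4 * M₀.dens σ τ v₁ v₂ W a b z + 1 / 4 * M₀.dens σ τ v₁ v₂ W a b z +
          1 / 4 * M₀.dens σ τ v₁ v₂ W a b z) + (n₁ z + n₂ z) * nY σ τ W a b z +
          2 * Q z * (a z ^ 2 + b z ^ 2) ≤ M₀.dens σ τ v₁ v₂ W a b z := by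
        unfold Q8.dens
        linarith
      have := mul_le_mul_of_nonneg_left key (sq_nonneg (χ z))
      linarith
  -- third step: the energy
  have Z3 := unit2 (s₁ := s₁) (s₂ := s₂) (r₁ := r₁) (r₂ := r₂) ok ot hv₁ hv₂ el₁ el₂ hW hχ hs₁
    hs₂ p3 p4 hδ cMm cNm (ct_add cc cd) (fun z hz h0 => by
      have T := H z hz h0
      refine ⟨?_, ?_, ?_, ?_, fun x y => ?_, T.r₁, T.r₂⟩
      · simp only [Nm, Q8.add_def, qt, Q8.sm, Pi.add_apply, Pi.mul_apply, add_zero]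
        linarith [T.κδ]
      · simp only [Nm, Q8.add_def, qt, Q8.sm, Pi.add_apply, Pi.mul_apply, add_zero]
        linarith [T.ζ₁]
      · simp only [Nm, Q8.add_def, qt, Q8.sm, Pi.add_apply, Pi.mul_apply, add_zero]
        linarith [T.ζ₂]
      · simp only [Nm, Q8.add_def, qt, Q8.sm, Pi.add_apply, Pi.mul_apply, add_zero]
        linarith [T.hy, p1 z hz, p2 z hz]
      · simp only [Nm, Q8.add_def, qt, Q8.sm, Pi.add_apply, Pi.mul_apply, add_zero]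
        linarith [T.w x y]) Z2
  -- last step
  refine zone_mono ok ot hv₁ hv₂ hW Z3
    (H338.E.ct_sm hχc (ct_add cMm (zs2_ct ok ot hW hs₁.continuousOn hs₂.continuousOn)))
    (ct_add (ct_add cc cd) (cu2_ct ok ot hχ hs₁.continuousOn hs₂.continuousOn))
    (H338.E.ct_sm hχc (ct_add (qt_ct cM) (TL_ct hN hx hy)))
    (ct_add (ct_add cc cd) (cu2_ct ok ot hχ hs₁.continuousOn hs₂.continuousOn))
    fun z hz a b => ?_
  refine add_le_add ?_ le_rfl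
  rw [Q8.dens_sm, Q8.dens_sm]
  by_cases h0 : χ z = 0
  · simp only [h0, ne_eq, OfNat.ofNat_ne_zero, not_false_eq_true, zero_pow, zero_mul]
    exact le_rfl
  refine mul_le_mul_of_nonneg_left ?_ (sq_nonneg _)
  have T := H z hz h0
  simp only [Q8.dens_add, Q8.dens_sm, Mm, qt]
  have d1 : (zs2 σ τ W s₁ s₂).dens σ τ v₁ v₂ W a b z = s₁ z * nX σ W a z + s₂ z * nX τ W b z +
      s₁ z * σ.F W z * a z ^ 2 + s₂ z * τ.F W z * b z ^ 2 := by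
    unfold Q8.dens zs2
    ring
  have d2 : (TL cT N ρx ρy).dens σ τ v₁ v₂ W a b z =
      cT * (N z * (ρx z ^ 2 + ρy z ^ 2)) * nX σ W a z +
      cT * (N z * (ρx z ^ 2 + ρy z ^ 2)) * nX τ W b z +
      cT * (N z ^ 2 * ρx z ^ 2 + N z ^ 3 * ρy z ^ 2) * a z ^ 2 +
      cT * (N z ^ 3 * ρx z ^ 2 + N z ^ 2 * ρy z ^ 2) * b z ^ 2 := by
    unfold Q8.dens TL
    ring
  have d3 : (⟨fun _ => 0, fun _ => 0, fun _ => 0, fun _ => 0,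
      fun z => 1 / 2 * (n₁ z * Dn σ ν W z ^ 2), fun z => 1 / 2 * (n₂ z * Dn τ ν W z ^ 2),
      fun _ => 0, fun _ => 0⟩ : Q8 E).dens σ τ v₁ v₂ W a b z =
      1 / 2 * (n₁ z * Dn σ ν W z ^ 2) * a z ^ 2 + 1 / 2 * (n₂ z * Dn τ ν W z ^ 2) * b z ^ 2 := by
    unfold Q8.dens
    ring
  rw [d1, d2, d3]
  have nx := Q8.nX_nonneg σ W a z
  have nx' := Q8.nX_nonneg τ W b z
  have ny := Q8.nY_nonneg σ τ W a b z
  have l1 : nX σ W a z ≤ 2 * nY σ τ W a b z + 2 * nX τ W b z := by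
    unfold nY nX
    rw [Finset.mul_sum, Finset.mul_sum, ← Finset.sum_add_distrib]
    refine Finset.sum_le_sum fun i _ => ?_
    nlinarith [sq_nonneg (Ch.XX σ W a z i - 2 * Ch.XX τ W b z i)]
  have l2 : nX τ W b z ≤ 2 * nY σ τ W a b z + 2 * nX σ W a z := by
    unfold nY nX
    rw [Finset.mul_sum, Finset.mul_sum, ← Finset.sum_add_distrib]
    refine Finset.sum_le_sum fun i _ => ?_
    nlinarith [sq_nonneg (2 * Ch.XX σ W a z i - Ch.XX τ W b z i)]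
  have j1 := mul_le_mul_of_nonneg_left l1 (p4 z hz)
  have j2 := mul_le_mul_of_nonneg_left l2 (p3 z hz)
  have j3 := mul_le_mul_of_nonneg_right T.sy ny
  have j4 := mul_le_mul_of_nonneg_right T.t₁ nx
  have j5 := mul_le_mul_of_nonneg_right T.t₁ nx'
  have j6 := mul_le_mul_of_nonneg_right T.t₂ nx
  have j7 := mul_le_mul_of_nonneg_right T.t₂ nx'
  have j8 := mul_le_mul_of_nonneg_right T.u₁ (sq_nonneg (a z))
  have j9 := mul_le_mul_of_nonneg_right T.u₂ (sq_nonneg (b z))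
  have j10 := T.u (a z) (b z)
  have j11 : 0 ≤ s₁ z * σ.F W z * a z ^ 2 :=
    mul_nonneg (mul_nonneg (p3 z hz) T.F₁) (sq_nonneg _)
  have j12 : 0 ≤ s₂ z * τ.F W z * b z ^ 2 :=
    mul_nonneg (mul_nonneg (p4 z hz) T.F₂) (sq_nonneg _)
  have k0 := mul_nonneg T.κ0 (sqd_nonneg σ τ v₁ v₂ W a b z)
  have k1 := mul_nonneg T.ζ₁ nx
  have k2 := mul_nonneg T.ζ₂ nx'
  have k3 : 0 ≤ s₁ z * nX σ W a z := mul_nonneg (p3 z hz) nx
  have k4 : 0 ≤ s₂ z * nX τ W b z := mul_nonneg (p4 z hz) nx'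
  unfold Q8.dens
  linarith

end Vale.Agent.P088.R2.H338.C
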