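import Vale.Agent.P088.R2.H338.C.Cnv
import Vale.Agent.P088.R2.H972.E.Unit

/-!
# P088, stage 3: the energy conversion with two weights, one slot through the other

`unit2`: helper972's conversion with weights `s₁`, `s₂` in the two slots.
`cross`: `|X a|² ≤ 2 |X a - X b|² + 2 |X b|²` as an exchange of letters.
-/

open MeasureTheory Set Filter
open scoped ContDiff Topology

noncomputable section

namespace Vale.Agent.P088.R2.H338.C

open Vale.Agent.P088.R2.H961.GW Vale.Agent.P088.R2.H960.W Vale.Agent.P088.R2.H644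
open Vale.Agent.P088.R2.H551.E Vale.Agent.P088.R2.H972.E
open Vale.Agent.P088.R2.H86.Z (El)

variable {E ι : Type*} [NormedAddCommGroup E] [NormedSpace ℝ E] [Fintype ι]

/-- The new margins. -/
def zs2 (σ τ : Sl E ι) (W s₁ s₂ : E → ℝ) : Q8 E :=
  ⟨fun _ => 0, s₁, s₂, fun _ => 0, fun z => s₁ z * σ.F W z, fun z => s₂ z * τ.F W z, fun _ => 0,
    fun _ => 0⟩

/-- The new costs. -/
def cu2 (σ τ : Sl E ι) (s₁ s₂ χ : E → ℝ) : Q8 E :=
  ⟨fun _ => 0, fun _ => 0, fun _ => 0, fun _ => 0, fun z => 64 * (s₁ z * σ.Γ χ χ z),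
    fun z => 64 * (s₂ z * τ.Γ χ χ z), fun _ => 0, fun _ => 0⟩

theorem zs2_ct {σ τ : Sl E ι} {U : Set E} {θ W s₁ s₂ : E → ℝ} (ok : σ.Ok U θ)
    (ot : τ.Ok U θ) (hW : Sm U W) (h1 : ContinuousOn s₁ U) (h2 : ContinuousOn s₂ U) :
    (zs2 σ τ W s₁ s₂).Ct U :=
  ⟨continuousOn_const, h1, h2, continuousOn_const, h1.mul (ok.sF hW).continuousOn,
    h2.mul (ot.sF hW).continuousOn, continuousOn_const, continuousOn_const⟩

theorem cu2_ct {σ τ : Sl E ι} {U : Set E} {θ s₁ s₂ χ : E → ℝ} (ok : σ.Ok U θ)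
    (ot : τ.Ok U θ) (hχ : Sm U χ) (h1 : ContinuousOn s₁ U) (h2 : ContinuousOn s₂ U) :
    (cu2 σ τ s₁ s₂ χ).Ct U :=
  ⟨continuousOn_const, continuousOn_const, continuousOn_const, continuousOn_const,
    continuousOn_const.mul (h1.mul (ok.sG hχ hχ).continuousOn),
    continuousOn_const.mul (h2.mul (ot.sG hχ hχ).continuousOn), continuousOn_const,
    continuousOn_const⟩

/-- `N` dominates what the conversion uses. -/
structure Dom2 (σ τ : Sl E ι) (v₁ v₂ W s₁ s₂ r₁ r₂ : E → ℝ) (δ : ℝ) (N : Q8 E) (z : E) : Prop where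
  κ : 8 * δ ≤ N.κ z
  ζ₁ : 0 ≤ N.ζ₁ z
  ζ₂ : 0 ≤ N.ζ₂ z
  ζy : 0 ≤ N.ζy z
  w : ∀ x y : ℝ, Qz σ v₁ W s₁ r₁ δ z * x ^ 2 + Qz τ v₂ W s₂ r₂ δ z * y ^ 2 ≤
    N.w₁ z * x ^ 2 + N.w₂ z * y ^ 2 + N.wb z * (x + y) ^ 2 + N.wc z * (x - y) ^ 2
  r₁ : 0 ≤ r₁ z ∧ σ.Γ s₁ s₁ z ≤ s₁ z * r₁ z
  r₂ : 0 ≤ r₂ z ∧ τ.Γ s₂ s₂ z ≤ s₂ z * r₂ z

variable [MeasureSpace E] [FiniteDimensional ℝ E] [BorelSpace E]
  [(volume : Measure E).IsAddHaarMeasure]

/-- **The conversion with two weights.** -/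
theorem unit2 {σ τ : Sl E ι} {U : Set E} {θ v₁ v₂ W χ s₁ s₂ r₁ r₂ : E → ℝ} {δ : ℝ}
    (ok : σ.Ok U θ) (ot : τ.Ok U θ) (hv₁ : Sm U v₁) (hv₂ : Sm U v₂)
    (el₁ : ∀ z ∈ U, El σ z) (el₂ : ∀ z ∈ U, El τ z) (hW : Sm U W) (hχ : Sm U χ)
    (hs₁ : Sm U s₁) (hs₂ : Sm U s₂) (p1 : ∀ z ∈ U, 0 ≤ s₁ z) (p2 : ∀ z ∈ U, 0 ≤ s₂ z)
    (hδ : 0 < δ) {M N co : Q8 E} (cM : M.Ct U) (cN : N.Ct U)
    (cc : co.Ct U) (hN : ∀ z ∈ U, χ z ≠ 0 → Dom2 σ τ v₁ v₂ W s₁ s₂ r₁ r₂ δ N z)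
    (zone : Zone σ τ U θ v₁ v₂ W χ ((M + N).sm fun z => χ z ^ 2) co) :
    Zone σ τ U θ v₁ v₂ W χ ((M + zs2 σ τ W s₁ s₂).sm fun z => χ z ^ 2)
      (co + cu2 σ τ s₁ s₂ χ) := by
  intro a b ha hb
  refine le_trans ?_ (zone a b ha hb)
  have hU := ok.op
  have hχc : ContinuousOn (fun z => χ z ^ 2) U := hχ.continuousOn.pow 2
  have hom1 : Sm U fun z => χ z ^ 2 * s₁ z := (hχ.pow 2).mul hs₁
  have hom2 : Sm U fun z => χ z ^ 2 * s₂ z := (hχ.pow 2).mul hs₂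
  have cz := zs2_ct (s₁ := s₁) (s₂ := s₂) ok ot hW hs₁.continuousOn hs₂.continuousOn
  have cu := cu2_ct (s₁ := s₁) (s₂ := s₂) ok ot hχ hs₁.continuousOn hs₂.continuousOn
  have iM := Q8.int_dens ok ot hv₁ hv₂ hW ha hb (H338.E.ct_sm hχc cM)
  have iN := Q8.int_dens ok ot hv₁ hv₂ hW ha hb (H338.E.ct_sm hχc cN)
  have iz := Q8.int_dens ok ot hv₁ hv₂ hW ha hb (H338.E.ct_sm hχc cz)
  have ic := Q8.int_dens ok ot hv₁ hv₂ hW ha hb cc
  have iu := Q8.int_dens ok ot hv₁ hv₂ hW ha hb cu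
  have i1 := te_int hU ok.ts (trem (v := v₁) ok hv₁ hW hom1 ha)
  have i2 := te_int hU ok.ts (trem (v := v₂) ot hv₂ hW hom2 hb)
  have z1 : In U θ (rem σ v₁ W (fun z => χ z ^ 2 * s₁ z) a) = 0 := In_rem ok hW hom1 ha
  have z2 : In U θ (rem τ v₂ W (fun z => χ z ^ 2 * s₂ z) b) = 0 := In_rem ot hW hom2 hb
  have sp : ∀ (A B : Q8 E), IntegrableOn (fun z => θ z *
      (A.sm fun z => χ z ^ 2).dens σ τ v₁ v₂ W a b z) U → IntegrableOn (fun z => θ z *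
      (B.sm fun z => χ z ^ 2).dens σ τ v₁ v₂ W a b z) U →
      In U θ (((A + B).sm fun z => χ z ^ 2).dens σ τ v₁ v₂ W a b) =
      In U θ ((A.sm fun z => χ z ^ 2).dens σ τ v₁ v₂ W a b) +
      In U θ ((B.sm fun z => χ z ^ 2).dens σ τ v₁ v₂ W a b) := by
    intro A B iA iB
    unfold In
    rw [← integral_add iA iB]
    refine setIntegral_congr_fun hU.measurableSet fun z _ => ?_
    simp only [Q8.dens_sm, Q8.dens_add]
    ring
  have spc : In U θ ((co + cu2 σ τ s₁ s₂ χ).dens σ τ v₁ v₂ W a b) =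
      In U θ (co.dens σ τ v₁ v₂ W a b) + In U θ ((cu2 σ τ s₁ s₂ χ).dens σ τ v₁ v₂ W a b) := by
    unfold In
    rw [← integral_add ic iu]
    refine setIntegral_congr_fun hU.measurableSet fun z _ => ?_
    simp only [Q8.dens_add]
    ring
  rw [sp M _ iM iz, sp M N iM iN, spc]
  have key : In U θ (((zs2 σ τ W s₁ s₂).sm fun z => χ z ^ 2).dens σ τ v₁ v₂ W a b) ≤
      In U θ ((N.sm fun z => χ z ^ 2).dens σ τ v₁ v₂ W a b) +
      In U θ ((cu2 σ τ s₁ s₂ χ).dens σ τ v₁ v₂ W a b) +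
      8 * (In U θ (rem σ v₁ W (fun z => χ z ^ 2 * s₁ z) a) +
        In U θ (rem τ v₂ W (fun z => χ z ^ 2 * s₂ z) b)) := by
    have e : In U θ ((N.sm fun z => χ z ^ 2).dens σ τ v₁ v₂ W a b) +
      In U θ ((cu2 σ τ s₁ s₂ χ).dens σ τ v₁ v₂ W a b) +
      8 * (In U θ (rem σ v₁ W (fun z => χ z ^ 2 * s₁ z) a) +
        In U θ (rem τ v₂ W (fun z => χ z ^ 2 * s₂ z) b)) = ∫ z in U,
        (θ z * (N.sm fun z => χ z ^ 2).dens σ τ v₁ v₂ W a b z +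
        θ z * (cu2 σ τ s₁ s₂ χ).dens σ τ v₁ v₂ W a b z) +
        8 * (θ z * rem σ v₁ W (fun z => χ z ^ 2 * s₁ z) a z +
          θ z * rem τ v₂ W (fun z => χ z ^ 2 * s₂ z) b z) := by
      have e3 := integral_add (iN.add iu) ((i1.add i2).const_mul 8)
      have e2 := integral_add i1 i2
      have e1 := integral_add iN iu
      simp only [Pi.add_apply] at e1 e2 e3
      rw [e3, integral_const_mul, e2, e1]
      rfl
    rw [e]
    refine setIntegral_mono_on iz ((iN.add iu).add ((i1.add i2).const_mul 8)) hU.measurableSet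
      fun z hz => ?_
    have hq : ((zs2 σ τ W s₁ s₂).sm fun z => χ z ^ 2).dens σ τ v₁ v₂ W a b z ≤
        (N.sm fun z => χ z ^ 2).dens σ τ v₁ v₂ W a b z +
        (cu2 σ τ s₁ s₂ χ).dens σ τ v₁ v₂ W a b z +
        8 * (rem σ v₁ W (fun z => χ z ^ 2 * s₁ z) a z +
          rem τ v₂ W (fun z => χ z ^ 2 * s₂ z) b z) := by
      rw [Q8.dens_sm, Q8.dens_sm]
      have ez : (zs2 σ τ W s₁ s₂).dens σ τ v₁ v₂ W a b z =
          (s₁ z * ∑ i, Ch.XX σ W a z i ^ 2 + s₁ z * σ.F W z * a z ^ 2) +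
          (s₂ z * ∑ i, Ch.XX τ W b z i ^ 2 + s₂ z * τ.F W z * b z ^ 2) := by
        unfold Q8.dens zs2 nX
        ring
      have eu : (cu2 σ τ s₁ s₂ χ).dens σ τ v₁ v₂ W a b z =
          64 * (s₁ z * σ.Γ χ χ z) * a z ^ 2 + 64 * (s₂ z * τ.Γ χ χ z) * b z ^ 2 := by
        unfold Q8.dens cu2
        ring
      rw [ez, eu]
      have hχz := sq_nonneg (χ z)
      by_cases h0 : χ z = 0
      · have q1 := pt_X (v := v₁) (W := W) (u := a) (r := fun _ => 0) ok el₁ hχ hs₁ hδ hz (p1 z hz)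
          le_rfl fun h => absurd h0 h
        have q2 := pt_X (v := v₂) (W := W) (u := b) (r := fun _ => 0) ot el₂ hχ hs₂ hδ hz (p2 z hz)
          le_rfl fun h => absurd h0 h
        rw [h0] at q1 q2 ⊢
        simp only [ne_eq, OfNat.ofNat_ne_zero, not_false_eq_true, zero_pow, zero_mul] at q1 q2 ⊢
        linarith
      · have d := hN z hz h0
        have q1 := pt_X (v := v₁) (W := W) (u := a) ok el₁ hχ hs₁ hδ hz (p1 z hz) d.r₁.1
          fun _ => d.r₁.2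
        have q2 := pt_X (v := v₂) (W := W) (u := b) ot el₂ hχ hs₂ hδ hz (p2 z hz) d.r₂.1
          fun _ => d.r₂.2
        have hd : 8 * δ * σ.P v₁ W a z ^ 2 + Qz σ v₁ W s₁ r₁ δ z * a z ^ 2 +
            (8 * δ * τ.P v₂ W b z ^ 2 + Qz τ v₂ W s₂ r₂ δ z * b z ^ 2) ≤
            N.dens σ τ v₁ v₂ W a b z := by
          have k0 : σ.P v₁ W a z ^ 2 + τ.P v₂ W b z ^ 2 ≤ sqd σ τ v₁ v₂ W a b z := by
            unfold sqd
            have := sq_nonneg (τ.P v₂ W a z)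
            have := sq_nonneg (σ.P v₁ W b z)
            linarith
          have k1 := mul_le_mul_of_nonneg_right d.κ (sqd_nonneg σ τ v₁ v₂ W a b z)
          have k2 := mul_le_mul_of_nonneg_left k0 (by positivity : 0 ≤ 8 * δ)
          have k3 := mul_nonneg d.ζ₁ (Q8.nX_nonneg σ W a z)
          have k4 := mul_nonneg d.ζ₂ (Q8.nX_nonneg τ W b z)
          have k5 := mul_nonneg d.ζy (Q8.nY_nonneg σ τ W a b z)
          have k6 := d.w (a z) (b z)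
          unfold Q8.dens
          linarith
        have := mul_le_mul_of_nonneg_left hd hχz
        linarith
    have := mul_le_mul_of_nonneg_left hq (ok.tp z hz).le
    linarith
  rw [z1, z2] at key
  linarith

end Vale.Agent.P088.R2.H338.C
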